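import Vale.Agent.Lib.P200.Defs

namespace Vale.Agent.Lib.P200

open MvPolynomial Module

variable {K : Type*} [Field K]

/-- Short name for the homogeneous forms of degree `d` in three variables. -/
abbrev Hd (K : Type*) [Field K] (d : ℕ) : Submodule K (MvPolynomial (Fin 3) K) :=
  homogeneousSubmodule (Fin 3) K d

instance Hd_finite (d : ℕ) : Module.Finite K (Hd K d) :=
  Module.Finite.iff_fg.mpr (homogeneousSubmodule_fg (Fin 3) K d)

lemma mem_Hd {d : ℕ} {g : MvPolynomial (Fin 3) K} : g ∈ Hd K d ↔ g.IsHomogeneous d := Iff.rfl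

lemma Hd_mul_mem {a b : ℕ} {g h : MvPolynomial (Fin 3) K} (hg : g ∈ Hd K a) (hh : h ∈ Hd K b) :
    g * h ∈ Hd K (a + b) := IsHomogeneous.mul hg hh

lemma Hd_one_mul (d : ℕ) : Hd K 1 * Hd K d = Hd K (d + 1) := by
  have h1 := homogeneousSubmodule_one_pow (σ := Fin 3) (R := K) (d + 1)
  have h2 := homogeneousSubmodule_one_pow (σ := Fin 3) (R := K) d
  rw [pow_succ', h2] at h1
  exact h1

lemma X_mem_Hd (i : Fin 3) : (X i : MvPolynomial (Fin 3) K) ∈ Hd K 1 := isHomogeneous_X K i

lemma finrank_Hd (d : ℕ) : finrank K (Hd K d) = (d + 2).choose 2 := by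
  classical
  have h1 : Hd K d = AddMonoidAlgebra.supported K K {m : Fin 3 →₀ ℕ | m.degree = d} :=
    homogeneousSubmodule_eq_finsupp_supported (Fin 3) K d
  rw [h1]
  have h2 := (AddMonoidAlgebra.supportedEquivFinsupp (R := K) (S := K)
    {m : Fin 3 →₀ ℕ | m.degree = d}).finrank_eq
  rw [h2]
  have hset : {m : Fin 3 →₀ ℕ | m.degree = d}
      = ↑((Finset.univ : Finset (Fin 3)).finsuppAntidiag d) := by
    ext m
    simp only [Set.mem_ofPred_eq, Finset.mem_coe, Finset.mem_finsuppAntidiag, Finset.subset_univ,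
      and_true]
    rw [Finsupp.degree_eq_sum]
  rw [hset]
  rw [Module.finrank_finsupp_self]
  simp only [Finset.coe_sort_coe, Fintype.card_coe]
  rw [Finset.card_finsuppAntidiag_nat_eq_choose, Finset.card_univ, Fintype.card_fin,
    show 3 + d - 1 = d + 2 by omega]
  exact Nat.choose_symm_add


lemma fin_of_le {d : ℕ} {V : Submodule K (MvPolynomial (Fin 3) K)} (h : V ≤ Hd K d) :
    Module.Finite K V := Submodule.finiteDimensional_of_le h

lemma finrank_mono_Hd {d : ℕ} {V W : Submodule K (MvPolynomial (Fin 3) K)} (h : V ≤ W)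
    (hW : W ≤ Hd K d) : finrank K V ≤ finrank K W := by
  have := fin_of_le hW
  exact Submodule.finrank_mono h

/-- The image of a subspace under multiplication by `g`. -/
noncomputable def gmul (g : MvPolynomial (Fin 3) K) (V : Submodule K (MvPolynomial (Fin 3) K)) :
    Submodule K (MvPolynomial (Fin 3) K) := V.map (LinearMap.mulLeft K g)

lemma mem_gmul {g x : MvPolynomial (Fin 3) K} {V : Submodule K (MvPolynomial (Fin 3) K)} :
    x ∈ gmul g V ↔ ∃ u ∈ V, g * u = x := by
  simp [gmul, Submodule.mem_map]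

lemma mul_mem_gmul {g u : MvPolynomial (Fin 3) K} {V : Submodule K (MvPolynomial (Fin 3) K)}
    (hu : u ∈ V) : g * u ∈ gmul g V := mem_gmul.mpr ⟨u, hu, rfl⟩

lemma finrank_gmul {g : MvPolynomial (Fin 3) K} (hg : g ≠ 0)
    (V : Submodule K (MvPolynomial (Fin 3) K)) : finrank K (gmul g V) = finrank K V := by
  have hinj : Function.Injective (LinearMap.mulLeft K g) := by
    intro a b hab
    exact mul_left_cancel₀ hg hab
  exact (Submodule.equivMapOfInjective _ hinj V).finrank_eq.symm

lemma gmul_le_Hd {g : MvPolynomial (Fin 3) K} {a b : ℕ} (hg : g ∈ Hd K a)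
    {V : Submodule K (MvPolynomial (Fin 3) K)} (hV : V ≤ Hd K b) : gmul g V ≤ Hd K (a + b) := by
  intro x hx
  obtain ⟨u, hu, rfl⟩ := mem_gmul.mp hx
  exact Hd_mul_mem hg (hV hu)

lemma gmul_mono {g : MvPolynomial (Fin 3) K} {V W : Submodule K (MvPolynomial (Fin 3) K)}
    (h : V ≤ W) : gmul g V ≤ gmul g W := Submodule.map_mono h

/-- Homogeneous component of a product with a homogeneous element. -/
lemma comp_mul {f : MvPolynomial (Fin 3) K} {e : ℕ} (hf : f.IsHomogeneous e) (k : ℕ)
    (a : MvPolynomial (Fin 3) K) :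
    homogeneousComponent (e + k) (f * a) = f * homogeneousComponent k a := by
  classical
  ext m
  rw [coeff_homogeneousComponent, coeff_mul, coeff_mul]
  split_ifs with hm
  · refine Finset.sum_congr rfl fun x hx => ?_
    rw [coeff_homogeneousComponent]
    have hx' : x.1 + x.2 = m := Finset.HasAntidiagonal.mem_antidiagonal.mp hx
    by_cases h1 : x.1.degree = e
    · have h2 : x.2.degree = k := by
        have : x.1.degree + x.2.degree = m.degree := by rw [← hx', map_add]
        omega
      simp [h2]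
    · rw [hf.coeff_eq_zero h1]; simp
  · refine (Finset.sum_eq_zero fun x hx => ?_).symm
    rw [coeff_homogeneousComponent]
    have hx' : x.1 + x.2 = m := Finset.HasAntidiagonal.mem_antidiagonal.mp hx
    by_cases h1 : x.1.degree = e
    · have h2 : x.2.degree ≠ k := by
        have : x.1.degree + x.2.degree = m.degree := by rw [← hx', map_add]
        omega
      simp [h2]
    · rw [hf.coeff_eq_zero h1]; simp

/-- A product with a homogeneous element of degree `e` has no components of degree `< e`. -/
lemma comp_mul_low {f : MvPolynomial (Fin 3) K} {e : ℕ} (hf : f.IsHomogeneous e) {n : ℕ} (hn : n < e)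
    (a : MvPolynomial (Fin 3) K) : homogeneousComponent n (f * a) = 0 := by
  classical
  ext m
  rw [coeff_homogeneousComponent, coeff_zero]
  split_ifs with hm
  · rw [coeff_mul]
    refine Finset.sum_eq_zero fun x hx => ?_
    have hx' : x.1 + x.2 = m := Finset.HasAntidiagonal.mem_antidiagonal.mp hx
    have h1 : x.1.degree ≠ e := by
      have : x.1.degree + x.2.degree = m.degree := by rw [← hx', map_add]
      omega
    rw [hf.coeff_eq_zero h1, zero_mul]
  · rfl

end Vale.Agent.Lib.P200
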