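import Vale.Agent.Lib.P200.Syz

namespace Vale.Agent.Lib.P200

open MvPolynomial Module

variable {K : Type*} [Field K]

/-- The dimension bound for the part of degree `7` of an ideal generated by two forms. -/
lemma two_gen {x w : MvPolynomial (Fin 3) K} {α β A B D : ℕ} (hx : x ∈ Hd K α) (hw : w ∈ Hd K β)
    (hx0 : x ≠ 0) (hw0 : w ≠ 0) (hA : α + A = 7) (hB : β + B = 7) (hD : α + β + D = 7) :
    finrank K ↥(gmul x (Hd K A) ⊔ gmul w (Hd K B)) + finrank K (Hd K D)
      ≤ finrank K (Hd K A) + finrank K (Hd K B) := by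
  have h1 : gmul x (Hd K A) ≤ Hd K 7 := by
    have := gmul_le_Hd hx (le_refl (Hd K A))
    rwa [hA] at this
  have h2 : gmul w (Hd K B) ≤ Hd K 7 := by
    have := gmul_le_Hd hw (le_refl (Hd K B))
    rwa [hB] at this
  have := fin_of_le h1
  have := fin_of_le h2
  have h3 := Submodule.finrank_sup_add_finrank_inf_eq (gmul x (Hd K A)) (gmul w (Hd K B))
  rw [finrank_gmul hx0, finrank_gmul hw0] at h3
  have h4 : gmul (x * w) (Hd K D) ≤ gmul x (Hd K A) ⊓ gmul w (Hd K B) := by
    intro y hy
    obtain ⟨t, ht, rfl⟩ := mem_gmul.mp hy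
    refine Submodule.mem_inf.mpr ⟨mem_gmul.mpr ⟨w * t, ?_, by ring⟩, mem_gmul.mpr ⟨x * t, ?_, by ring⟩⟩
    · have := Hd_mul_mem hw ht
      rwa [show β + D = A by omega] at this
    · have := Hd_mul_mem hx ht
      rwa [show α + D = B by omega] at this
  have h5 : finrank K (gmul (x * w) (Hd K D)) ≤ finrank K ↥(gmul x (Hd K A) ⊓ gmul w (Hd K B)) :=
    finrank_mono_Hd h4 (le_trans inf_le_left h1)
  rw [finrank_gmul (mul_ne_zero hx0 hw0)] at h5
  omega

section Regular

variable {a b c : MvPolynomial (Fin 3) K}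

/-- The regular sequence generates everything in degree seven. -/
lemma hd7_le (h : RegSeq a b c) (ha : a ∈ Hd K 3) (hb : b ∈ Hd K 3) (hc : c ∈ Hd K 3)
    {N Z : Submodule K (MvPolynomial (Fin 3) K)} (haN : a ∈ N) (hbN : b ∈ N) (hcN : c ∈ N)
    (hZ : Hd K 4 * N ≤ Z) : Hd K 7 ≤ Z := by
  have hF : finrank K (degPart (Ideal.span {a, b, c}) 7) = 36 := finrank_F h ha hb hc (by omega)
  have hs : finrank K (Hd K 7) = 36 := by rw [finrank_Hd]; rfl
  have hle : degPart (Ideal.span {a, b, c}) 7 ≤ Hd K 7 := inf_le_right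
  have heq : degPart (Ideal.span {a, b, c}) 7 = Hd K 7 :=
    Submodule.eq_of_le_of_finrank_le hle (by omega)
  intro g hg
  rw [← heq] at hg
  obtain ⟨h1, h2⟩ := mem_degPart.mp hg
  obtain ⟨x, y, z, hs'⟩ := mem_span3.mp h1
  have h3 := homog_decomp3 (k := 4) ha hb hc h2 hs'
  rw [← h3]
  refine Submodule.add_mem _ (Submodule.add_mem _ ?_ ?_) ?_
  · exact hZ (Submodule.mul_mem_mul (homogeneousComponent_mem 4 x) haN)
  · exact hZ (Submodule.mul_mem_mul (homogeneousComponent_mem 4 y) hbN)
  · exact hZ (Submodule.mul_mem_mul (homogeneousComponent_mem 4 z) hcN)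

end Regular

/-- Some minor of two independent linear syzygies of independent forms does not vanish. -/
lemma exists_minor {u : Fin 3 → MvPolynomial (Fin 3) K} (hli : LinearIndependent K u)
    {s t : Fin 3 → ↥(Hd K 1)} (hs : ∑ j, (s j).1 * u j = 0)
    (hst : LinearIndependent K ![s, t]) :
    ∃ i j, (s i).1 * (t j).1 - (s j).1 * (t i).1 ≠ 0 := by
  by_contra hcon
  push Not at hcon
  have hmin : ∀ i j, (s i).1 * (t j).1 = (s j).1 * (t i).1 := fun i j => sub_eq_zero.mp (hcon i j)
  have hs0 : s ≠ 0 := by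
    rintro rfl
    have := hst.ne_zero 0
    exact this rfl
  obtain ⟨i, hi⟩ : ∃ i, (s i).1 ≠ 0 := by
    by_contra hall
    push Not at hall
    apply hs0
    funext j
    exact Subtype.ext (hall j)
  by_cases hd : (s i).1 ∣ (t i).1
  · obtain ⟨κ, hκ⟩ := lin_dvd (s i).2 (t i).2 hd
    have hall : ∀ j, (t j).1 = C κ * (s j).1 := by
      intro j
      have h1 := hmin i j
      rw [hκ] at h1
      have h2 : (s i).1 * ((t j).1 - C κ * (s j).1) = 0 := by linear_combination h1
      rcases mul_eq_zero.mp h2 with h3 | h3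
      · exact absurd h3 hi
      · linear_combination h3
    have h4 : t = κ • s := by
      funext j
      apply Subtype.ext
      rw [hall j]
      simp [smul_eq_C_mul]
    have h5 := LinearIndependent.pair_iff.mp hst κ (-1) (by
      simp only [neg_smul, one_smul]
      rw [h4]
      simp)
    exact one_ne_zero (neg_eq_zero.mp h5.2)
  · have hpr := lin_prime (s i).2 hi
    have hall : ∀ j, ∃ α : K, (s j).1 = C α * (s i).1 := by
      intro j
      have h1 : (s i).1 ∣ (s j).1 * (t i).1 := ⟨(t j).1, (hmin i j).symm⟩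
      exact lin_dvd (s i).2 (s j).2 ((hpr.dvd_or_dvd h1).resolve_right hd)
    choose α hα using hall
    have h2 : (s i).1 * (∑ j, C (α j) * u j) = 0 := by
      rw [Finset.mul_sum, ← hs]
      refine Finset.sum_congr rfl fun j _ => ?_
      rw [hα j]
      ring
    have h3 : ∑ j, α j • u j = 0 := by
      rcases mul_eq_zero.mp h2 with h4 | h4
      · exact absurd h4 hi
      · simpa [smul_eq_C_mul] using h4
    have h4 := Fintype.linearIndependent_iff.mp hli α h3 i
    have h5 := hα i
    rw [h4, C_0, zero_mul] at h5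
    exact hi h5

/-- Two independent linear syzygies bound the dimension in degree seven. -/
theorem finrank_le_33 {V : Submodule K (MvPolynomial (Fin 3) K)} (hV : V ≤ Hd K 2)
    (h3 : finrank K V = 3) (hU : finrank K ↥(Hd K 1 * V) ≤ 7) :
    finrank K ↥(Hd K 5 * V) ≤ 33 := by
  have := fin_of_le hV
  obtain ⟨u, hli, hsp⟩ := exists_fam h3
  have hker := finrank_ker_syz u 1
  have hker5 := finrank_ker_syz u 5
  rw [hsp, finrank_Hd] at hker hker5
  have hc1 : (1 + 2).choose 2 = 3 := rfl
  have hc5 : (5 + 2).choose 2 = 21 := rfl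
  rw [hc1] at hker
  rw [hc5] at hker5
  have h2 : 1 < finrank K (LinearMap.ker (syzMap u 1)) := by omega
  obtain ⟨s0, hs0⟩ : ∃ s0 : LinearMap.ker (syzMap u 1), s0 ≠ 0 := by
    have : Nontrivial (LinearMap.ker (syzMap u 1)) :=
      Module.nontrivial_of_finrank_pos (R := K) (by omega)
    exact exists_ne 0
  obtain ⟨t0, hst⟩ := exists_linearIndependent_pair_of_one_lt_finrank (R := K)
    (M := LinearMap.ker (syzMap u 1)) h2 hs0
  let s : Fin 3 → ↥(Hd K 1) := s0.1
  let t : Fin 3 → ↥(Hd K 1) := t0.1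
  have hs : ∑ j, (s j).1 * u j = 0 := by
    have := s0.2
    rwa [LinearMap.mem_ker, syzMap_apply] at this
  have ht : ∑ j, (t j).1 * u j = 0 := by
    have := t0.2
    rwa [LinearMap.mem_ker, syzMap_apply] at this
  have hst' : LinearIndependent K ![s, t] := by
    have h1 := hst.map' (LinearMap.ker (syzMap u 1)).subtype (Submodule.ker_subtype _)
    have h2 : (LinearMap.ker (syzMap u 1)).subtype ∘ ![s0, t0] = ![s, t] := by
      funext i
      fin_cases i <;> rfl
    rwa [h2] at h1
  obtain ⟨i, j, hij⟩ := exists_minor hli hs hst'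
  -- the injective map
  let Θ : (↥(Hd K 4) × ↥(Hd K 4)) →ₗ[K] (Fin 3 → ↥(Hd K 5)) :=
    { toFun := fun p k => ⟨p.1.1 * (s k).1 + p.2.1 * (t k).1,
        Submodule.add_mem _ (Hd_mul_mem p.1.2 (s k).2) (Hd_mul_mem p.2.2 (t k).2)⟩
      map_add' := fun p q => by
        funext k
        apply Subtype.ext
        simp only [Prod.fst_add, Prod.snd_add, Submodule.coe_add, Pi.add_apply]
        ring
      map_smul' := fun c p => by
        funext k
        apply Subtype.ext
        simp only [Prod.smul_fst, Prod.smul_snd, Submodule.coe_smul, Pi.smul_apply, RingHom.id_apply,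
          smul_eq_mul, smul_mul_assoc, smul_add] }
  have hΘ : ∀ p k, (Θ p k).1 = p.1.1 * (s k).1 + p.2.1 * (t k).1 := fun _ _ => rfl
  have hΘker : ∀ p, Θ p ∈ LinearMap.ker (syzMap u 5) := by
    intro p
    rw [LinearMap.mem_ker, syzMap_apply]
    have h1 : ∑ k, (Θ p k).1 * u k = p.1.1 * ∑ k, (s k).1 * u k + p.2.1 * ∑ k, (t k).1 * u k := by
      rw [Finset.mul_sum, Finset.mul_sum, ← Finset.sum_add_distrib]
      refine Finset.sum_congr rfl fun k _ => ?_
      rw [hΘ]
      ring
    rw [h1, hs, ht]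
    simp
  have hΘinj : Function.Injective Θ := by
    rw [← LinearMap.ker_eq_bot, LinearMap.ker_eq_bot']
    intro p hp
    have hk : ∀ k, p.1.1 * (s k).1 + p.2.1 * (t k).1 = 0 := by
      intro k
      have := congrFun hp k
      have h4 := congrArg Subtype.val this
      rwa [hΘ] at h4
    have h5 : p.1.1 * ((s i).1 * (t j).1 - (s j).1 * (t i).1) = 0 := by
      linear_combination (t j).1 * hk i - (t i).1 * hk j
    have h6 : p.2.1 * ((s i).1 * (t j).1 - (s j).1 * (t i).1) = 0 := by
      linear_combination (s i).1 * hk j - (s j).1 * hk i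
    have h7 : p.1.1 = 0 := (mul_eq_zero.mp h5).resolve_right hij
    have h8 : p.2.1 = 0 := (mul_eq_zero.mp h6).resolve_right hij
    exact Prod.ext (Subtype.ext h7) (Subtype.ext h8)
  let Θ' : (↥(Hd K 4) × ↥(Hd K 4)) →ₗ[K] LinearMap.ker (syzMap u 5) :=
    Θ.codRestrict _ hΘker
  have hΘ'inj : Function.Injective Θ' := by
    intro p q hpq
    apply hΘinj
    exact congrArg Subtype.val hpq
  have h7 := LinearMap.finrank_le_finrank_of_injective hΘ'inj
  rw [Module.finrank_prod, finrank_Hd] at h7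
  have hc4 : (4 + 2).choose 2 = 15 := rfl
  rw [hc4] at h7
  omega

end Vale.Agent.Lib.P200
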