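import Mathlib

namespace Vale.Agent.Lib.P200

open MvPolynomial Module

/-- The monomial `x_1^a x_2^b x_3^c` of the polynomial ring in three variables. -/
noncomputable def mon (K : Type*) [Field K] (t : ℕ × ℕ × ℕ) : MvPolynomial (Fin 3) K :=
  X 0 ^ t.1 * X 1 ^ t.2.1 * X 2 ^ t.2.2

/-- The degree `d` part `I_d` of an ideal, as a `K`-subspace. -/
noncomputable def degPart {K : Type*} [Field K] (I : Ideal (MvPolynomial (Fin 3) K)) (d : ℕ) :
    Submodule K (MvPolynomial (Fin 3) K) :=
  I.restrictScalars K ⊓ homogeneousSubmodule (Fin 3) K d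

/-- The degree `d` part of the ideal `P = (x_1^3, x_2^3, x_3^3)`: the span of the monomials of
degree `d` with some exponent at least three. -/
noncomputable def Pd (K : Type*) [Field K] (d : ℕ) : Submodule K (MvPolynomial (Fin 3) K) :=
  Submodule.span K (mon K '' {t : ℕ × ℕ × ℕ | t.1 + t.2.1 + t.2.2 = d ∧
    (3 ≤ t.1 ∨ 3 ≤ t.2.1 ∨ 3 ≤ t.2.2)})

/-- The exponent vectors of the monomials of degree `d` outside `P`. -/
def outsideP (d : ℕ) : Finset (ℕ × ℕ × ℕ) :=
  (Finset.range 3 ×ˢ Finset.range 3 ×ˢ Finset.range 3).filter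
    (fun t => t.1 + t.2.1 + t.2.2 = d)

/-- `lexGT s t`: the monomial with exponent vector `s` is greater than the one with exponent
vector `t` in the lexicographic order with `x_1 > x_2 > x_3`. -/
def lexGT (s t : ℕ × ℕ × ℕ) : Prop :=
  t.1 < s.1 ∨ (t.1 = s.1 ∧ (t.2.1 < s.2.1 ∨ (t.2.1 = s.2.1 ∧ t.2.2 < s.2.2)))

instance : DecidableRel lexGT := fun s t => by
  unfold lexGT
  infer_instance

/-- The number of monomials of degree `d` outside `P` which are lexicographically greater than `t`. -/
def lexRank (d : ℕ) (t : ℕ × ℕ × ℕ) : ℕ :=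
  ((outsideP d).filter (fun s => lexGT s t)).card

/-- The number `q_d = dim I_d - dim P_d`. -/
noncomputable def qd {K : Type*} [Field K] (I : Ideal (MvPolynomial (Fin 3) K)) (d : ℕ) : ℕ :=
  finrank K (degPart I d) - finrank K (Pd K d)

/-- The span `J_d` of `P_d` and of the `q_d` lexicographically greatest monomials of degree `d`
outside `P`. -/
noncomputable def Jd {K : Type*} [Field K] (I : Ideal (MvPolynomial (Fin 3) K)) (d : ℕ) :
    Submodule K (MvPolynomial (Fin 3) K) :=
  Pd K d ⊔ Submodule.span K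
    (mon K '' {t : ℕ × ℕ × ℕ | t ∈ outsideP d ∧ lexRank d t < qd I d})

end Vale.Agent.Lib.P200
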