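import Vale.Agent.Lib.P200.Growth2

namespace Vale.Agent.Lib.P200

open MvPolynomial Module

variable {K : Type*} [Field K]

/-- Regular sequences in the sense of the statement. -/
lemma regSeq_of (f : Fin 3 → MvPolynomial (Fin 3) K)
    (hreg : ∀ (i : Fin 3) (u : MvPolynomial (Fin 3) K),
      f i * u ∈ Ideal.span (f '' {j | j < i}) → u ∈ Ideal.span (f '' {j | j < i})) :
    RegSeq (f 0) (f 1) (f 2) := by
  have e0 : f '' {j : Fin 3 | j < 0} = ∅ := by
    ext x
    simp
  have e1 : f '' {j : Fin 3 | j < 1} = {f 0} := by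
    ext x
    constructor
    · rintro ⟨j, hj, rfl⟩
      fin_cases j
      · simp
      · exact absurd hj (by decide)
      · exact absurd hj (by decide)
    · rintro rfl
      exact ⟨0, by decide, rfl⟩
  have e2 : f '' {j : Fin 3 | j < 2} = {f 0, f 1} := by
    ext x
    constructor
    · rintro ⟨j, hj, rfl⟩
      fin_cases j
      · simp
      · simp
      · exact absurd hj (by decide)
    · rintro (rfl | rfl)
      · exact ⟨0, by decide, rfl⟩
      · exact ⟨1, by decide, rfl⟩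
  refine ⟨?_, ?_, ?_⟩
  · intro h0
    have h1 := hreg 0 1
    rw [e0, h0, zero_mul, Ideal.span_empty] at h1
    have h2 := h1 (Ideal.zero_mem _)
    rw [Ideal.mem_bot] at h2
    exact one_ne_zero h2
  · intro u hu
    have h1 := hreg 1 u
    rw [e1] at h1
    exact h1 hu
  · intro u hu
    have h1 := hreg 2 u
    rw [e2] at h1
    exact h1 hu

section growth

variable {a b c : MvPolynomial (Fin 3) K}

theorem growth_all (h : RegSeq a b c) (ha : a ∈ Hd K 3) (hb : b ∈ Hd K 3) (hc : c ∈ Hd K 3)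
    {d : ℕ} (hd : d ≤ 5) : GrowthAt a b c d := by
  interval_cases d
  · exact growth0
  · exact growth1
  · exact growth2 h ha hb hc
  · exact growth_dual h ha hb hc (d := 3) (by omega) (by omega) (growth2 h ha hb hc)
  · exact growth_dual h ha hb hc (d := 4) (by omega) (by omega) growth1
  · exact growth_dual h ha hb hc (d := 5) (by omega) (by omega) growth0

/-- The numerical growth of an ideal containing the regular sequence. -/
theorem step_I (h : RegSeq a b c) (ha : a ∈ Hd K 3) (hb : b ∈ Hd K 3) (hc : c ∈ Hd K 3)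
    {I : Ideal (MvPolynomial (Fin 3) K)} (hI : Ideal.span {a, b, c} ≤ I) {d : ℕ} (hd : d ≤ 5) :
    ff (d + 1) + GG d (finrank K (degPart I d) - ff d) ≤ finrank K (degPart I (d + 1)) := by
  have hV : degPart I d ≤ Hd K d := inf_le_right
  have hFV : degPart (Ideal.span {a, b, c}) d ≤ degPart I d :=
    inf_le_inf_right _ hI
  have h1 := growth_all h ha hb hc hd (degPart I d) hV hFV
  refine h1.trans (finrank_mono_Hd (sup_le ?_ (inf_le_inf_right _ hI)) (inf_le_right :
    degPart I (d + 1) ≤ Hd K (d + 1)))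
  refine Submodule.mul_le.mpr fun m hm g hg => ?_
  obtain ⟨h2, h3⟩ := mem_degPart.mp hg
  rw [mem_degPart]
  refine ⟨I.mul_mem_left m h2, ?_⟩
  have := Hd_mul_mem hm h3
  rwa [add_comm] at this

end growth

/-- Exponent vectors as finitely supported functions. -/
noncomputable def toF (t : ℕ × ℕ × ℕ) : Fin 3 →₀ ℕ :=
  Finsupp.single 0 t.1 + Finsupp.single 1 t.2.1 + Finsupp.single 2 t.2.2

lemma toF_inj : Function.Injective toF := by
  rintro ⟨a, b, c⟩ ⟨a', b', c'⟩ h
  have h0 := DFunLike.congr_fun h 0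
  have h1 := DFunLike.congr_fun h 1
  have h2 := DFunLike.congr_fun h 2
  simp [toF] at h0 h1 h2
  simp [h0, h1, h2]

lemma mon_eq (t : ℕ × ℕ × ℕ) : mon K t = monomial (toF t) 1 := by
  simp [mon, toF, X_pow_eq_monomial, monomial_mul]

lemma mon_li : LinearIndependent K (mon K) := by
  have h1 := (basisMonomials (Fin 3) K).linearIndependent.comp toF toF_inj
  have e : mon K = ⇑(basisMonomials (Fin 3) K) ∘ toF := by
    ext1 t
    rw [mon_eq]
    simp
  rw [e]
  exact h1

lemma finrank_span_mon (s : Finset (ℕ × ℕ × ℕ)) :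
    finrank K (Submodule.span K (mon K '' (s : Set (ℕ × ℕ × ℕ)))) = s.card := by
  have h1 : LinearIndependent K (fun x : s => mon K x.1) :=
    mon_li.comp _ Subtype.val_injective
  have h2 := finrank_span_eq_card h1
  have h3 : Set.range (fun x : s => mon K x.1) = mon K '' (s : Set (ℕ × ℕ × ℕ)) := by
    ext y
    simp
  rw [h3] at h2
  rw [h2]
  simp

lemma mon_mem_Hd {t : ℕ × ℕ × ℕ} {d : ℕ} (h : t.1 + t.2.1 + t.2.2 = d) : mon K t ∈ Hd K d := by
  rw [← h]
  have h0 := (isHomogeneous_X K (0 : Fin 3)).pow t.1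
  have h1 := (isHomogeneous_X K (1 : Fin 3)).pow t.2.1
  have h2 := (isHomogeneous_X K (2 : Fin 3)).pow t.2.2
  have := (h0.mul h1).mul h2
  simpa [mon, Nat.mul_comm] using this

/-- The monomials of degree `d` in `P`. -/
def inP (d : ℕ) : Finset (ℕ × ℕ × ℕ) :=
  (Finset.range (d + 1) ×ˢ Finset.range (d + 1) ×ˢ Finset.range (d + 1)).filter
    (fun t => t.1 + t.2.1 + t.2.2 = d ∧ (3 ≤ t.1 ∨ 3 ≤ t.2.1 ∨ 3 ≤ t.2.2))

lemma coe_inP (d : ℕ) : ((inP d : Finset (ℕ × ℕ × ℕ)) : Set (ℕ × ℕ × ℕ)) =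
    {t : ℕ × ℕ × ℕ | t.1 + t.2.1 + t.2.2 = d ∧ (3 ≤ t.1 ∨ 3 ≤ t.2.1 ∨ 3 ≤ t.2.2)} := by
  ext t
  simp only [inP, Finset.coe_filter, Finset.mem_product, Finset.mem_range, Set.mem_ofPred_eq]
  constructor
  · exact fun h => h.2
  · exact fun h => ⟨⟨by omega, by omega, by omega⟩, h⟩

lemma Pd_eq (d : ℕ) : Pd K d = Submodule.span K (mon K '' ((inP d : Finset _) : Set (ℕ × ℕ × ℕ))) := by
  rw [coe_inP]
  rfl

set_option maxRecDepth 100000 in
lemma card_inP : ∀ d ∈ Finset.range 8, (inP d).card = ff d := by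
  decide

lemma finrank_Pd {d : ℕ} (hd : d ≤ 7) : finrank K (Pd K d) = ff d := by
  rw [Pd_eq, finrank_span_mon]
  exact card_inP d (Finset.mem_range.mpr (by omega))

lemma mem_outsideP {d : ℕ} {t : ℕ × ℕ × ℕ} :
    t ∈ outsideP d ↔ (t.1 < 3 ∧ t.2.1 < 3 ∧ t.2.2 < 3) ∧ t.1 + t.2.1 + t.2.2 = d := by
  simp [outsideP, Finset.mem_filter, Finset.mem_product, Finset.mem_range]

/-- Multiplication by a variable on exponent vectors. -/
def bump : Fin 3 → ℕ × ℕ × ℕ → ℕ × ℕ × ℕ
  | 0, t => (t.1 + 1, t.2.1, t.2.2)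
  | 1, t => (t.1, t.2.1 + 1, t.2.2)
  | 2, t => (t.1, t.2.1, t.2.2 + 1)

lemma X_mul_mon (i : Fin 3) (t : ℕ × ℕ × ℕ) : X i * mon K t = mon K (bump i t) := by
  fin_cases i <;> simp [mon, bump, pow_succ] <;> ring

lemma bump_sum (i : Fin 3) (t : ℕ × ℕ × ℕ) :
    (bump i t).1 + (bump i t).2.1 + (bump i t).2.2 = t.1 + t.2.1 + t.2.2 + 1 := by
  fin_cases i <;> simp [bump] <;> omega

lemma bump_ge (i : Fin 3) (t : ℕ × ℕ × ℕ) :
    t.1 ≤ (bump i t).1 ∧ t.2.1 ≤ (bump i t).2.1 ∧ t.2.2 ≤ (bump i t).2.2 := by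
  fin_cases i <;> simp [bump]

lemma GG_mono {d q q' : ℕ} (h : q ≤ q') : GG d q ≤ GG d q' := by
  have hd : d = 0 ∨ d = 1 ∨ d = 2 ∨ d = 3 ∨ d = 4 ∨ d = 5 ∨ 6 ≤ d := by omega
  rcases hd with rfl | rfl | rfl | rfl | rfl | rfl | hd
  · rcases q with _ | q <;> rcases q' with _ | q' <;> simp [GG] <;> omega
  · rcases q with _ | _ | _ | q <;> rcases q' with _ | _ | _ | q' <;> simp [GG] <;> omega
  · rcases q with _ | _ | _ | _ | _ | q <;> rcases q' with _ | _ | _ | _ | _ | q' <;>
      simp [GG] <;> omega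
  · rcases q with _ | _ | _ | _ | _ | _ | q <;> rcases q' with _ | _ | _ | _ | _ | _ | q' <;>
      simp [GG] <;> omega
  · rcases q with _ | _ | _ | _ | q <;> rcases q' with _ | _ | _ | _ | q' <;>
      simp [GG] <;> omega
  · rcases q with _ | q <;> rcases q' with _ | q' <;> simp [GG] <;> omega
  · have h0 : ∀ n, GG d n = 0 := by
      intro n
      obtain ⟨k, rfl⟩ := Nat.exists_eq_add_of_le hd
      rw [show 6 + k = k + 6 by omega]
      rfl
    rw [h0, h0]

set_option maxRecDepth 100000 in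
lemma lex_table : ∀ d ∈ Finset.range 6, ∀ t ∈ outsideP d, ∀ i : Fin 3, bump i t ∈ outsideP (d + 1) →
    lexRank (d + 1) (bump i t) < GG d (lexRank d t + 1) := by
  decide

/-- Multiplication by a variable preserves the monomial spaces. -/
lemma X_mul_Pd (i : Fin 3) (d : ℕ) : ∀ g ∈ Pd K d, X i * g ∈ Pd K (d + 1) := by
  have h : Pd K d ≤ (Pd K (d + 1)).comap (LinearMap.mulLeft K (X i)) := by
    rw [Pd, Submodule.span_le]
    rintro _ ⟨t, ⟨h1, h2⟩, rfl⟩
    show X i * mon K t ∈ Pd K (d + 1)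
    rw [X_mul_mon]
    refine Submodule.subset_span ⟨bump i t, ⟨?_, ?_⟩, rfl⟩
    · rw [bump_sum, h1]
    · obtain ⟨e1, e2, e3⟩ := bump_ge i t
      omega
  exact fun g hg => h hg

lemma X_mul_Jd (I : Ideal (MvPolynomial (Fin 3) K)) (i : Fin 3) (d : ℕ)
    (hstep : d ≤ 5 → GG d (qd I d) ≤ qd I (d + 1)) : ∀ g ∈ Jd I d, X i * g ∈ Jd I (d + 1) := by
  have h : Jd I d ≤ (Jd I (d + 1)).comap (LinearMap.mulLeft K (X i)) := by
    refine sup_le ?_ ?_
    · intro g hg
      exact Submodule.mem_sup_left (X_mul_Pd i d g hg)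
    · rw [Submodule.span_le]
      rintro _ ⟨t, ⟨h1, h2⟩, rfl⟩
      show X i * mon K t ∈ Jd I (d + 1)
      rw [X_mul_mon]
      obtain ⟨e1, e2, e3⟩ := bump_ge i t
      have hs := bump_sum i t
      obtain ⟨⟨t1, t2, t3⟩, t4⟩ := mem_outsideP.mp h1
      by_cases hc : 3 ≤ (bump i t).1 ∨ 3 ≤ (bump i t).2.1 ∨ 3 ≤ (bump i t).2.2
      · exact Submodule.mem_sup_left (Submodule.subset_span ⟨bump i t, ⟨by omega, hc⟩, rfl⟩)
      · have hout : bump i t ∈ outsideP (d + 1) := mem_outsideP.mpr ⟨by omega, by omega⟩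
        have hd : d ≤ 5 := by
          obtain ⟨⟨s1, s2, s3⟩, s4⟩ := mem_outsideP.mp hout
          omega
        have h3 := lex_table d (Finset.mem_range.mpr (by omega)) t h1 i hout
        have h4 : GG d (lexRank d t + 1) ≤ GG d (qd I d) := GG_mono (by omega)
        have h5 := hstep hd
        exact Submodule.mem_sup_right (Submodule.subset_span ⟨bump i t, ⟨hout, by omega⟩, rfl⟩)
  exact fun g hg => h hg

/-- The sum of the `J_d` is an ideal, given the growth. -/
theorem ideal_of_step (I : Ideal (MvPolynomial (Fin 3) K))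
    (hstep : ∀ d, d ≤ 5 → GG d (qd I d) ≤ qd I (d + 1)) :
    ∃ 𝔍 : Ideal (MvPolynomial (Fin 3) K), ∀ g, g ∈ 𝔍 ↔ g ∈ ⨆ d, Jd I d := by
  let W : Submodule K (MvPolynomial (Fin 3) K) := ⨆ d, Jd I d
  have hX : ∀ (i : Fin 3), ∀ g ∈ W, X i * g ∈ W := by
    intro i g hg
    induction hg using Submodule.iSup_induction' with
    | mem d x hx =>
      exact Submodule.mem_iSup_of_mem (d + 1) (X_mul_Jd I i d (hstep d) x hx)
    | zero => simp
    | add x y _ _ hx hy =>
      rw [mul_add]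
      exact W.add_mem hx hy
  have hall : ∀ p : MvPolynomial (Fin 3) K, ∀ g ∈ W, p * g ∈ W := by
    intro p
    induction p using MvPolynomial.induction_on with
    | C s =>
      intro g hg
      rw [← smul_eq_C_mul]
      exact W.smul_mem s hg
    | add p q hp hq =>
      intro g hg
      rw [add_mul]
      exact W.add_mem (hp g hg) (hq g hg)
    | mul_X p i hp =>
      intro g hg
      rw [mul_assoc]
      exact hp _ (hX i g hg)
  refine ⟨{ carrier := W, add_mem' := W.add_mem, zero_mem' := W.zero_mem,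
            smul_mem' := fun p g hg => hall p g hg }, fun g => Iff.rfl⟩

/-- The top part of `J_d` as a finite set. -/
def topSet (d q : ℕ) : Finset (ℕ × ℕ × ℕ) := (outsideP d).filter (fun t => lexRank d t < q)

set_option maxRecDepth 100000 in
lemma card_topSet : ∀ d ∈ Finset.range 7, ∀ q ∈ Finset.range ((outsideP d).card + 1),
    (topSet d q).card = q := by
  decide

set_option maxRecDepth 100000 in
lemma card_total : ∀ d ∈ Finset.range 7, ff d + (outsideP d).card = (d + 2).choose 2 := by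
  decide

lemma disjoint_parts (d q : ℕ) : Disjoint (inP d) (topSet d q) := by
  rw [Finset.disjoint_left]
  intro t h1 h2
  simp only [inP, Finset.mem_filter] at h1
  have h3 := (Finset.mem_filter.mp h2).1
  obtain ⟨⟨t1, t2, t3⟩, _⟩ := mem_outsideP.mp h3
  omega

lemma Jd_eq (I : Ideal (MvPolynomial (Fin 3) K)) (d : ℕ) :
    Jd I d = Submodule.span K (mon K '' ((inP d ∪ topSet d (qd I d) : Finset _) : Set (ℕ × ℕ × ℕ))) := by
  rw [Finset.coe_union, Set.image_union, Submodule.span_union, ← Pd_eq]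
  have hset : {t : ℕ × ℕ × ℕ | t ∈ outsideP d ∧ lexRank d t < qd I d}
      = ((topSet d (qd I d) : Finset _) : Set (ℕ × ℕ × ℕ)) := by
    ext t
    simp only [topSet, Finset.coe_filter, Set.mem_ofPred_eq]
  rw [Jd, hset]

/-- Dimensions in degrees at most six. -/
lemma finrank_Jd_low {I : Ideal (MvPolynomial (Fin 3) K)} {d : ℕ} (hd : d ≤ 6)
    (hF : ff d ≤ finrank K (degPart I d)) : finrank K (Jd I d) = finrank K (degPart I d) := by
  rw [Jd_eq, finrank_span_mon, Finset.card_union_of_disjoint (disjoint_parts _ _),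
    card_inP d (Finset.mem_range.mpr (by omega))]
  have hq : qd I d = finrank K (degPart I d) - ff d := by
    rw [qd, finrank_Pd (by omega)]
  have hle : finrank K (degPart I d) ≤ (d + 2).choose 2 := by
    have := finrank_mono_Hd (inf_le_right : degPart I d ≤ Hd K d) (le_refl _)
    rwa [finrank_Hd] at this
  have hc := card_total d (Finset.mem_range.mpr (by omega))
  rw [card_topSet d (Finset.mem_range.mpr (by omega)) (qd I d)
    (Finset.mem_range.mpr (by omega))]
  omega

lemma outsideP_high {d : ℕ} (hd : 7 ≤ d) : outsideP d = ∅ := by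
  rw [Finset.eq_empty_iff_forall_notMem]
  intro t ht
  obtain ⟨⟨t1, t2, t3⟩, t4⟩ := mem_outsideP.mp ht
  omega

lemma Pd_le_Hd (d : ℕ) : Pd K d ≤ Hd K d := by
  rw [Pd, Submodule.span_le]
  rintro _ ⟨t, ⟨h1, _⟩, rfl⟩
  exact mon_mem_Hd h1

lemma Pd_high {d : ℕ} (hd : 7 ≤ d) : Pd K d = Hd K d := by
  induction d, hd using Nat.le_induction with
  | base =>
    refine Submodule.eq_of_le_of_finrank_le (Pd_le_Hd 7) ?_
    rw [finrank_Pd (by omega), finrank_Hd]
    decide
  | succ n hn ih =>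
    refine le_antisymm (Pd_le_Hd _) ?_
    rw [← Hd_one_mul n]
    refine Submodule.mul_le.mpr fun m hm g hg => ?_
    refine lin_mul_mem (g := g) (fun i => ?_) m hm
    rw [← ih] at hg
    exact X_mul_Pd i n g hg

lemma Jd_high (I : Ideal (MvPolynomial (Fin 3) K)) {d : ℕ} (hd : 7 ≤ d) : Jd I d = Hd K d := by
  rw [Jd, Pd_high hd]
  have h1 : mon K '' {t : ℕ × ℕ × ℕ | t ∈ outsideP d ∧ lexRank d t < qd I d} = ∅ := by
    rw [Set.image_eq_empty]
    ext t
    simp [outsideP_high hd]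
  rw [h1]
  simp

lemma degPart_high {I : Ideal (MvPolynomial (Fin 3) K)} {a b c : MvPolynomial (Fin 3) K}
    (h : RegSeq a b c) (ha : a ∈ Hd K 3) (hb : b ∈ Hd K 3) (hc : c ∈ Hd K 3)
    (hI : Ideal.span {a, b, c} ≤ I) {d : ℕ} (hd : 7 ≤ d) : degPart I d = Hd K d := by
  induction d, hd using Nat.le_induction with
  | base =>
    refine Submodule.eq_of_le_of_finrank_le inf_le_right ?_
    have h1 : finrank K (degPart (Ideal.span {a, b, c}) 7) = 36 :=
      finrank_F h ha hb hc (by omega)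
    have h2 : degPart (Ideal.span {a, b, c}) 7 ≤ degPart I 7 := inf_le_inf_right _ hI
    have h3 := finrank_mono_Hd h2 (inf_le_right : degPart I 7 ≤ Hd K 7)
    rw [finrank_Hd]
    have h4 : (7 + 2).choose 2 = 36 := rfl
    omega
  | succ n hn ih =>
    refine le_antisymm inf_le_right ?_
    rw [← Hd_one_mul n]
    refine Submodule.mul_le.mpr fun m hm g hg => ?_
    rw [← ih] at hg
    obtain ⟨h1, h2⟩ := mem_degPart.mp hg
    rw [mem_degPart]
    refine ⟨I.mul_mem_left m h1, ?_⟩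
    have := Hd_mul_mem hm h2
    rwa [add_comm] at this

/-- The Eisenbud-Green-Harris statement for regular sequences of three cubics in three
variables. -/
theorem egh_333 (f : Fin 3 → MvPolynomial (Fin 3) K) (hf : ∀ i, (f i).IsHomogeneous 3)
    (hreg : ∀ (i : Fin 3) (u : MvPolynomial (Fin 3) K),
      f i * u ∈ Ideal.span (f '' {j | j < i}) → u ∈ Ideal.span (f '' {j | j < i}))
    (I : Ideal (MvPolynomial (Fin 3) K)) (hI : ∀ i, f i ∈ I) :
    (∃ 𝔍 : Ideal (MvPolynomial (Fin 3) K), ∀ g, g ∈ 𝔍 ↔ g ∈ ⨆ d, Jd I d) ∧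
      ∀ d, finrank K (Jd I d) = finrank K (degPart I d) := by
  have h := regSeq_of f hreg
  have ha : f 0 ∈ Hd K 3 := hf 0
  have hb : f 1 ∈ Hd K 3 := hf 1
  have hc : f 2 ∈ Hd K 3 := hf 2
  have hspan : Ideal.span {f 0, f 1, f 2} ≤ I := by
    rw [Ideal.span_le]
    rintro x (rfl | rfl | rfl)
    · exact hI 0
    · exact hI 1
    · exact hI 2
  have hF : ∀ d, d ≤ 7 → ff d ≤ finrank K (degPart I d) := by
    intro d hd
    rw [← finrank_F h ha hb hc hd]
    exact finrank_mono_Hd (inf_le_inf_right _ hspan) (inf_le_right : degPart I d ≤ Hd K d)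
  refine ⟨ideal_of_step I ?_, ?_⟩
  · intro d hd
    have h1 := step_I h ha hb hc hspan hd
    rw [qd, qd, finrank_Pd (by omega), finrank_Pd (by omega)]
    omega
  · intro d
    by_cases hd : d ≤ 6
    · exact finrank_Jd_low hd (hF d (by omega))
    · rw [Jd_high I (by omega), degPart_high h ha hb hc hspan (by omega)]

end Vale.Agent.Lib.P200
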