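import Vale.Agent.Lib.P200.Persist

namespace Vale.Agent.Lib.P200

open MvPolynomial Module

variable {K : Type*} [Field K] {a b c : MvPolynomial (Fin 3) K}

lemma growth0 : GrowthAt a b c 0 := by
  intro V hV _
  have hmac := macaulay (d := 0) (by omega) hV
  have hsup : Hd K 1 * V ⊔ degPart (Ideal.span {a, b, c}) (0 + 1) ≤ Hd K (0 + 1) :=
    sup_le (mul_le_Hd hV) inf_le_right
  have hle := finrank_mono_Hd (le_sup_left : Hd K 1 * V ≤ _) hsup
  have h1 : ff (0 + 1) = 0 := rfl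
  have h2 : ff 0 = 0 := rfl
  rw [h1, h2, zero_add, Nat.sub_zero]
  refine le_trans ?_ (hmac.trans hle)
  generalize finrank K V = q
  rcases q with _ | q <;> simp [GG, mac]

lemma growth1 : GrowthAt a b c 1 := by
  intro V hV _
  have hmac := macaulay (d := 1) (by omega) hV
  have hsup : Hd K 1 * V ⊔ degPart (Ideal.span {a, b, c}) (1 + 1) ≤ Hd K (1 + 1) :=
    sup_le (mul_le_Hd hV) inf_le_right
  have hle := finrank_mono_Hd (le_sup_left : Hd K 1 * V ≤ _) hsup
  have h1 : ff (1 + 1) = 0 := rfl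
  have h2 : ff 1 = 0 := rfl
  rw [h1, h2, zero_add, Nat.sub_zero]
  refine le_trans ?_ (hmac.trans hle)
  generalize finrank K V = q
  rcases q with _ | _ | _ | q <;> simp [GG, mac]

lemma le_of_finrank_sup {U F : Submodule K (MvPolynomial (Fin 3) K)} {d : ℕ} (hU : U ≤ Hd K d)
    (hF : F ≤ Hd K d) (h : finrank K ↥(U ⊔ F) ≤ finrank K U) : F ≤ U := by
  have := fin_of_le (sup_le hU hF)
  have h1 := Submodule.eq_of_le_of_finrank_le (le_sup_left : U ≤ U ⊔ F) h
  rw [h1]
  exact le_sup_right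

lemma one_complement {U F : Submodule K (MvPolynomial (Fin 3) K)} {d : ℕ} (hU : U ≤ Hd K d)
    (hF : F ≤ Hd K d) (h : finrank K ↥(U ⊔ F) ≤ finrank K U + 1) :
    ∃ w ∈ Hd K d, w ≠ 0 ∧ F ≤ U ⊔ Submodule.span K {w} := by
  have := fin_of_le hU
  have := fin_of_le (sup_le hU hF)
  by_cases hFU : F ≤ U
  · refine ⟨X 0 ^ d, ?_, pow_ne_zero _ (X_ne_zero _), hFU.trans le_sup_left⟩
    have := (isHomogeneous_X K (0 : Fin 3)).pow d
    simpa using this
  · obtain ⟨w, hw, hwU⟩ := SetLike.not_le_iff_exists.mp hFU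
    refine ⟨w, hF hw, by rintro rfl; exact hwU U.zero_mem, ?_⟩
    have h1 : U ⊓ Submodule.span K {w} = ⊥ := by
      rw [Submodule.eq_bot_iff]
      rintro x ⟨hx1, hx2⟩
      obtain ⟨c, rfl⟩ := Submodule.mem_span_singleton.mp hx2
      by_cases hc : c = 0
      · simp [hc]
      · exact absurd ((Submodule.smul_mem_iff _ hc).mp hx1) hwU
    have h2 := Submodule.finrank_sup_add_finrank_inf_eq U (Submodule.span K {w})
    rw [h1, finrank_bot, add_zero, finrank_span_singleton (by rintro rfl; exact hwU U.zero_mem)] at h2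
    have hsub : U ⊔ Submodule.span K {w} ≤ U ⊔ F :=
      sup_le le_sup_left (by
        rw [Submodule.span_singleton_le_iff_mem]
        exact Submodule.mem_sup_right hw)
    have h3 := Submodule.eq_of_le_of_finrank_le hsub (by rw [h2]; exact h)
    rw [h3]
    exact le_sup_right

/-- The contradiction from two generators. -/
lemma contra_two (h : RegSeq a b c) (ha : a ∈ Hd K 3) (hb : b ∈ Hd K 3) (hc : c ∈ Hd K 3)
    {x w : MvPolynomial (Fin 3) K} {α β A B D : ℕ} (hx : x ∈ Hd K α) (hw : w ∈ Hd K β)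
    (hx0 : x ≠ 0) (hw0 : w ≠ 0) (hA : α + A = 3) (hB : β + B = 3) (hD : α + β + D = 7)
    (hN : ∀ y ∈ degPart (Ideal.span {a, b, c}) 3, y ∈ gmul x (Hd K A) ⊔ gmul w (Hd K B))
    (hdim : finrank K (Hd K (A + 4)) + finrank K (Hd K (B + 4)) < finrank K (Hd K D) + 36) :
    False := by
  have hmem : ∀ y ∈ ({a, b, c} : Set (MvPolynomial (Fin 3) K)), y ∈ Hd K 3 →
      y ∈ degPart (Ideal.span {a, b, c}) 3 :=
    fun y hy hy3 => mem_degPart.mpr ⟨Ideal.subset_span hy, hy3⟩
  have hZ : Hd K 4 * (gmul x (Hd K A) ⊔ gmul w (Hd K B)) ≤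
      gmul x (Hd K (A + 4)) ⊔ gmul w (Hd K (B + 4)) := by
    refine Submodule.mul_le.mpr fun m hm y hy => ?_
    obtain ⟨y1, hy1, y2, hy2, rfl⟩ := Submodule.mem_sup.mp hy
    obtain ⟨u, hu, rfl⟩ := mem_gmul.mp hy1
    obtain ⟨v, hv, rfl⟩ := mem_gmul.mp hy2
    rw [mul_add]
    refine Submodule.add_mem _ (Submodule.mem_sup_left ?_) (Submodule.mem_sup_right ?_)
    · rw [show m * (x * u) = x * (u * m) by ring]
      exact mul_mem_gmul (Hd_mul_mem hu hm)
    · rw [show m * (w * v) = w * (v * m) by ring]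
      exact mul_mem_gmul (Hd_mul_mem hv hm)
  have h7 := hd7_le h ha hb hc (hN a (hmem a (by simp) ha)) (hN b (hmem b (by simp) hb))
    (hN c (hmem c (by simp) hc)) hZ
  have h2 := two_gen (A := A + 4) (B := B + 4) (D := D) hx hw hx0 hw0 (by omega) (by omega) hD
  have hle : gmul x (Hd K (A + 4)) ⊔ gmul w (Hd K (B + 4)) ≤ Hd K 7 := by
    refine sup_le ?_ ?_
    · have := gmul_le_Hd hx (le_refl (Hd K (A + 4)))
      rwa [show α + (A + 4) = 7 by omega] at this
    · have := gmul_le_Hd hw (le_refl (Hd K (B + 4)))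
      rwa [show β + (B + 4) = 7 by omega] at this
  have h3 := finrank_mono_Hd h7 hle
  rw [finrank_Hd 7] at h3
  have h4 : (7 + 2).choose 2 = 36 := rfl
  rw [h4] at h3
  omega

lemma span_le_gmul {w : MvPolynomial (Fin 3) K} :
    Submodule.span K {w} ≤ gmul w (Hd K 0) := by
  rw [Submodule.span_singleton_le_iff_mem]
  have h1 : (1 : MvPolynomial (Fin 3) K) ∈ Hd K 0 := isHomogeneous_one (Fin 3) K
  have := mul_mem_gmul (g := w) h1
  rwa [mul_one] at this

lemma factor_mul {V : Submodule K (MvPolynomial (Fin 3) K)} {l : MvPolynomial (Fin 3) K}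
    (h : V ≤ gmul l (Hd K 1)) : Hd K 1 * V ≤ gmul l (Hd K 2) := by
  refine Submodule.mul_le.mpr fun m hm y hy => ?_
  obtain ⟨u, hu, rfl⟩ := mem_gmul.mp (h hy)
  rw [show m * (l * u) = l * (m * u) by ring]
  exact mul_mem_gmul (Hd_mul_mem hm hu)

/-- The case of a form with a linear factor complementing everything up to one form. -/
lemma case_factor (h : RegSeq a b c) (ha : a ∈ Hd K 3) (hb : b ∈ Hd K 3) (hc : c ∈ Hd K 3)
    {V : Submodule K (MvPolynomial (Fin 3) K)} {l : MvPolynomial (Fin 3) K} (hV : V ≤ Hd K 2)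
    (hl : l ∈ Hd K 1) (hl0 : l ≠ 0) (hfac : V ≤ gmul l (Hd K 1))
    (hsup : finrank K ↥(Hd K 1 * V ⊔ degPart (Ideal.span {a, b, c}) 3)
      ≤ finrank K ↥(Hd K 1 * V) + 1) : False := by
  obtain ⟨w, hw, hw0, hFw⟩ := one_complement (mul_le_Hd hV) (inf_le_right :
    degPart (Ideal.span {a, b, c}) 3 ≤ Hd K 3) hsup
  refine contra_two h ha hb hc (α := 1) (β := 3) (A := 2) (B := 0) (D := 3) hl hw hl0 hw0
    (by omega) (by omega) (by omega) ?_ ?_
  · intro y hy
    have h1 := hFw hy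
    exact (sup_le_sup (factor_mul hfac) span_le_gmul) h1
  · rw [finrank_Hd, finrank_Hd, finrank_Hd]
    decide

lemma case_one (h : RegSeq a b c) (ha : a ∈ Hd K 3) (hb : b ∈ Hd K 3) (hc : c ∈ Hd K 3)
    {V : Submodule K (MvPolynomial (Fin 3) K)} (hV : V ≤ Hd K 2) (h1 : finrank K V = 1)
    (hsup : finrank K ↥(Hd K 1 * V ⊔ degPart (Ideal.span {a, b, c}) 3) ≤ 4) : False := by
  have := fin_of_le hV
  obtain ⟨u, hli, hsp⟩ := exists_fam h1
  have hVu : V ≤ Submodule.span K {u 0} := by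
    rw [← hsp, Submodule.span_le]
    rintro _ ⟨i, rfl⟩
    fin_cases i
    exact Submodule.subset_span rfl
  have hu0 : u 0 ≠ 0 := hli.ne_zero 0
  have hu2 : u 0 ∈ Hd K 2 := hV (fam_mem hsp 0)
  have hUu : Hd K 1 * V ≤ gmul (u 0) (Hd K 1) := by
    refine Submodule.mul_le.mpr fun m hm y hy => ?_
    obtain ⟨s, rfl⟩ := Submodule.mem_span_singleton.mp (hVu hy)
    rw [show m * (s • u 0) = u 0 * (s • m) by rw [mul_smul_comm, mul_smul_comm, mul_comm]]
    exact mul_mem_gmul (Submodule.smul_mem _ s hm)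
  have hmac := macaulay (d := 2) (by omega) hV
  rw [h1] at hmac
  have hm3 : mac 2 1 = 3 := rfl
  rw [hm3] at hmac
  have hU3 : finrank K ↥(Hd K 1 * V) ≤ 3 := by
    have h2 := finrank_mono_Hd hUu (gmul_le_Hd hu2 (le_refl _))
    rwa [finrank_gmul hu0, finrank_Hd] at h2
  have hcmp : finrank K ↥(Hd K 1 * V ⊔ degPart (Ideal.span {a, b, c}) 3)
      ≤ finrank K ↥(Hd K 1 * V) + 1 := by omega
  obtain ⟨w, hw, hw0, hFw⟩ := one_complement (mul_le_Hd hV) (inf_le_right :
    degPart (Ideal.span {a, b, c}) 3 ≤ Hd K 3) hcmp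
  refine contra_two h ha hb hc (α := 2) (β := 3) (A := 1) (B := 0) (D := 2) hu2 hw hu0 hw0
    (by omega) (by omega) (by omega) ?_ ?_
  · intro y hy
    exact (sup_le_sup hUu span_le_gmul) (hFw hy)
  · rw [finrank_Hd, finrank_Hd, finrank_Hd]
    decide

lemma case_two (h : RegSeq a b c) (ha : a ∈ Hd K 3) (hb : b ∈ Hd K 3) (hc : c ∈ Hd K 3)
    {V : Submodule K (MvPolynomial (Fin 3) K)} (hV : V ≤ Hd K 2) (h2 : finrank K V = 2)
    (hsup : finrank K ↥(Hd K 1 * V ⊔ degPart (Ideal.span {a, b, c}) 3) ≤ 6) : False := by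
  have := fin_of_le hV
  have hmac := macaulay (d := 2) (by omega) hV
  rw [h2] at hmac
  have hm3 : mac 2 2 = 5 := rfl
  rw [hm3] at hmac
  have hsupU : Hd K 1 * V ⊔ degPart (Ideal.span {a, b, c}) 3 ≤ Hd K 3 :=
    sup_le (mul_le_Hd hV) inf_le_right
  have hle := finrank_mono_Hd (le_sup_left : Hd K 1 * V ≤ _) hsupU
  by_cases h5 : finrank K ↥(Hd K 1 * V) ≤ 5
  · obtain ⟨l, hl, hl0, hfac⟩ := factor_of_two hV h2 h5
    exact case_factor h ha hb hc hV hl hl0 hfac (by omega)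
  · have hF : degPart (Ideal.span {a, b, c}) 3 ≤ Hd K 1 * V :=
      le_of_finrank_sup (mul_le_Hd hV) inf_le_right (by omega)
    obtain ⟨u, hli, hsp⟩ := exists_fam h2
    have hVu : V ≤ gmul (u 0) (Hd K 0) ⊔ gmul (u 1) (Hd K 0) := by
      rw [← hsp, Submodule.span_le]
      rintro _ ⟨i, rfl⟩
      fin_cases i
      · exact Submodule.mem_sup_left (span_le_gmul (Submodule.subset_span rfl))
      · exact Submodule.mem_sup_right (span_le_gmul (Submodule.subset_span rfl))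
    have hUu : Hd K 1 * V ≤ gmul (u 0) (Hd K 1) ⊔ gmul (u 1) (Hd K 1) := by
      refine Submodule.mul_le.mpr fun m hm y hy => ?_
      obtain ⟨y1, hy1, y2, hy2, rfl⟩ := Submodule.mem_sup.mp (hVu hy)
      obtain ⟨p, hp, rfl⟩ := mem_gmul.mp hy1
      obtain ⟨q, hq, rfl⟩ := mem_gmul.mp hy2
      rw [mul_add]
      refine Submodule.add_mem _ (Submodule.mem_sup_left ?_) (Submodule.mem_sup_right ?_)
      · rw [show m * (u 0 * p) = u 0 * (m * p) by ring]
        exact mul_mem_gmul (Hd_mul_mem hm hp)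
      · rw [show m * (u 1 * q) = u 1 * (m * q) by ring]
        exact mul_mem_gmul (Hd_mul_mem hm hq)
    refine contra_two h ha hb hc (α := 2) (β := 2) (A := 1) (B := 1) (D := 3)
      (hV (fam_mem hsp 0)) (hV (fam_mem hsp 1)) (hli.ne_zero 0) (hli.ne_zero 1)
      (by omega) (by omega) (by omega) (fun y hy => hUu (hF hy)) ?_
    rw [finrank_Hd, finrank_Hd]
    decide

lemma case_three (h : RegSeq a b c) (ha : a ∈ Hd K 3) (hb : b ∈ Hd K 3) (hc : c ∈ Hd K 3)
    {V : Submodule K (MvPolynomial (Fin 3) K)} (hV : V ≤ Hd K 2) (h3 : finrank K V = 3)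
    (hsup : finrank K ↥(Hd K 1 * V ⊔ degPart (Ideal.span {a, b, c}) 3) ≤ 7) : False := by
  have := fin_of_le hV
  have hmac := macaulay (d := 2) (by omega) hV
  rw [h3] at hmac
  have hm3 : mac 2 3 = 6 := rfl
  rw [hm3] at hmac
  have hsupU : Hd K 1 * V ⊔ degPart (Ideal.span {a, b, c}) 3 ≤ Hd K 3 :=
    sup_le (mul_le_Hd hV) inf_le_right
  have hle := finrank_mono_Hd (le_sup_left : Hd K 1 * V ≤ _) hsupU
  by_cases h5 : finrank K ↥(Hd K 1 * V) ≤ 6
  · obtain ⟨l, hl, hl0, hfac⟩ := factor_of_three hV h3 h5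
    exact case_factor h ha hb hc hV hl hl0 hfac (by omega)
  · have hF : degPart (Ideal.span {a, b, c}) 3 ≤ Hd K 1 * V :=
      le_of_finrank_sup (mul_le_Hd hV) inf_le_right (by omega)
    have h33 := finrank_le_33 hV h3 (by omega)
    have hmem : ∀ y ∈ ({a, b, c} : Set (MvPolynomial (Fin 3) K)), y ∈ Hd K 3 →
        y ∈ Hd K 1 * V :=
      fun y hy hy3 => hF (mem_degPart.mpr ⟨Ideal.subset_span hy, hy3⟩)
    have hZ : Hd K 4 * (Hd K 1 * V) ≤ Hd K 5 * V := by
      rw [← mul_assoc]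
      exact mul_le_mul_left (Submodule.mul_le.mpr fun m hm n hn =>
        Hd_mul_mem hm hn) V
    have h7 := hd7_le h ha hb hc (hmem a (by simp) ha) (hmem b (by simp) hb)
      (hmem c (by simp) hc) hZ
    have hle7 : Hd K 5 * V ≤ Hd K 7 :=
      Submodule.mul_le.mpr fun m hm n hn => Hd_mul_mem hm (hV hn)
    have h8 := finrank_mono_Hd h7 hle7
    rw [finrank_Hd 7] at h8
    have h4 : (7 + 2).choose 2 = 36 := rfl
    rw [h4] at h8
    omega

/-- The persistence case. -/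
lemma case_persist (h : RegSeq a b c) (ha : a ∈ Hd K 3) (hb : b ∈ Hd K 3) (hc : c ∈ Hd K 3)
    {V : Submodule K (MvPolynomial (Fin 3) K)} (hV : V ≤ Hd K 2)
    (hF : degPart (Ideal.span {a, b, c}) 3 ≤ Hd K 1 * V)
    (hdim : (finrank K V = 4 ∧ finrank K ↥(Hd K 1 * V) = 8) ∨
      (finrank K V = 5 ∧ finrank K ↥(Hd K 1 * V) = 9)) : False := by
  obtain ⟨l, hl, hk⟩ := persist hV (mul_le_Hd hV) (le_refl _) hdim
  have hmem : ∀ y ∈ ({a, b, c} : Set (MvPolynomial (Fin 3) K)), y ∈ Hd K 3 →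
      y ∈ Hd K 1 * V :=
    fun y hy hy3 => hF (mem_degPart.mpr ⟨Ideal.subset_span hy, hy3⟩)
  let Z : Submodule K (MvPolynomial (Fin 3) K) :=
    (Ideal.span (V : Set (MvPolynomial (Fin 3) K))).restrictScalars K
  have hUZ : Hd K 1 * V ≤ Z := by
    refine Submodule.mul_le.mpr fun m _ n hn => ?_
    exact (Ideal.span (V : Set (MvPolynomial (Fin 3) K))).mul_mem_left m (Ideal.subset_span hn)
  have hZ : Hd K 4 * (Hd K 1 * V) ≤ Z := by
    refine Submodule.mul_le.mpr fun m _ n hn => ?_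
    exact (Ideal.span (V : Set (MvPolynomial (Fin 3) K))).mul_mem_left m (hUZ hn)
  have h7 := hd7_le h ha hb hc (hmem a (by simp) ha) (hmem b (by simp) hb)
      (hmem c (by simp) hc) hZ
  have hl7 : l ^ 7 ∈ Hd K 7 := by
    have := IsHomogeneous.pow hl 7
    simpa using this
  exact hk 7 (h7 hl7)

/-- The growth statement in degree two. -/
theorem growth2 (h : RegSeq a b c) (ha : a ∈ Hd K 3) (hb : b ∈ Hd K 3) (hc : c ∈ Hd K 3) :
    GrowthAt a b c 2 := by
  intro V hV _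
  have := fin_of_le hV
  have h1 : ff (2 + 1) = 3 := rfl
  have h2 : ff 2 = 0 := rfl
  rw [h1, h2, Nat.sub_zero]
  show 3 + GG 2 (finrank K V) ≤ finrank K ↥(Hd K 1 * V ⊔ degPart (Ideal.span {a, b, c}) 3)
  have hF3 : finrank K (degPart (Ideal.span {a, b, c}) 3) = 3 :=
    finrank_F h ha hb hc (by omega)
  have hF3le : degPart (Ideal.span {a, b, c}) 3 ≤ Hd K 3 := inf_le_right
  have hsupU : Hd K 1 * V ⊔ degPart (Ideal.span {a, b, c}) 3 ≤ Hd K 3 :=
    sup_le (mul_le_Hd hV) hF3le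
  have hle1 := finrank_mono_Hd (le_sup_left : Hd K 1 * V ≤ _) hsupU
  have hle2 := finrank_mono_Hd (le_sup_right :
    degPart (Ideal.span {a, b, c}) 3 ≤ Hd K 1 * V ⊔ degPart (Ideal.span {a, b, c}) 3) hsupU
  have hmac := macaulay (d := 2) (by omega) hV
  have hq : finrank K V ≤ 6 := by
    have := finrank_mono_Hd hV (le_refl _)
    rwa [finrank_Hd] at this
  have hU10 : finrank K ↥(Hd K 1 * V ⊔ degPart (Ideal.span {a, b, c}) 3) ≤ 10 := by
    have := finrank_mono_Hd hsupU (le_refl _)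
    rwa [finrank_Hd] at this
  by_contra hlt
  push Not at hlt
  generalize hqq : finrank K V = q at *
  interval_cases q
  · simp only [GG] at hlt
    omega
  · simp only [GG] at hlt
    exact case_one h ha hb hc hV hqq (by omega)
  · simp only [GG] at hlt
    exact case_two h ha hb hc hV hqq (by omega)
  · simp only [GG] at hlt
    exact case_three h ha hb hc hV hqq (by omega)
  · simp only [GG] at hlt
    simp only [mac] at hmac
    have hF : degPart (Ideal.span {a, b, c}) 3 ≤ Hd K 1 * V :=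
      le_of_finrank_sup (mul_le_Hd hV) hF3le (by omega)
    have h8 : finrank K ↥(Hd K 1 * V) = 8 := by omega
    exact case_persist h ha hb hc hV hF (Or.inl ⟨hqq, h8⟩)
  · simp only [GG] at hlt
    simp only [mac] at hmac
    have hF : degPart (Ideal.span {a, b, c}) 3 ≤ Hd K 1 * V :=
      le_of_finrank_sup (mul_le_Hd hV) hF3le (by omega)
    have h9 : finrank K ↥(Hd K 1 * V) = 9 := by omega
    exact case_persist h ha hb hc hV hF (Or.inr ⟨hqq, h9⟩)
  · simp only [GG] at hlt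
    simp only [mac] at hmac
    omega

end Vale.Agent.Lib.P200
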