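import Vale.Agent.Lib.P200.Basic

namespace Vale.Agent.Lib.P200

open MvPolynomial Module

variable {K : Type*} [Field K]

/-- Three polynomials forming a regular sequence. -/
structure RegSeq (a b c : MvPolynomial (Fin 3) K) : Prop where
  h0 : a ≠ 0
  h1 : ∀ u, b * u ∈ Ideal.span {a} → u ∈ Ideal.span {a}
  h2 : ∀ u, c * u ∈ Ideal.span {a, b} → u ∈ Ideal.span {a, b}

lemma mem_degPart {I : Ideal (MvPolynomial (Fin 3) K)} {d : ℕ} {g : MvPolynomial (Fin 3) K} :
    g ∈ degPart I d ↔ g ∈ I ∧ g ∈ Hd K d := by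
  simp [degPart, Submodule.mem_inf]

lemma mem_span3 {a b c g : MvPolynomial (Fin 3) K} :
    g ∈ Ideal.span {a, b, c} ↔ ∃ x y z, x * a + y * b + z * c = g := by
  have h : Ideal.span {a, b, c} = Ideal.span {a, b} ⊔ Ideal.span {c} := by
    rw [← Ideal.span_union]
    congr 1
    ext t
    simp only [Set.mem_insert_iff, Set.mem_singleton_iff, Set.mem_union]
    tauto
  rw [h, Submodule.mem_sup]
  constructor
  · rintro ⟨u, hu, v, hv, rfl⟩
    obtain ⟨x, y, rfl⟩ := Ideal.mem_span_pair.mp hu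
    obtain ⟨z, rfl⟩ := Ideal.mem_span_singleton'.mp hv
    exact ⟨x, y, z, rfl⟩
  · rintro ⟨x, y, z, rfl⟩
    exact ⟨x * a + y * b, Ideal.mem_span_pair.mpr ⟨x, y, rfl⟩, z * c,
      Ideal.mem_span_singleton'.mpr ⟨z, rfl⟩, rfl⟩

namespace RegSeq

variable {a b c : MvPolynomial (Fin 3) K}

/-- Syzygies of a regular sequence are Koszul. -/
lemma E1 (h : RegSeq a b c) {x y z : MvPolynomial (Fin 3) K} (hs : x * a + y * b + z * c = 0) :
    ∃ p q r, x = q * c - r * b ∧ y = r * a - p * c ∧ z = p * b - q * a := by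
  have h1 : c * z ∈ Ideal.span {a, b} := by
    refine Ideal.mem_span_pair.mpr ⟨-x, -y, ?_⟩
    linear_combination -hs
  obtain ⟨α, β, hz⟩ := Ideal.mem_span_pair.mp (h.h2 z h1)
  have h2 : b * (y + β * c) ∈ Ideal.span {a} := by
    refine Ideal.mem_span_singleton'.mpr ⟨-(x + α * c), ?_⟩
    linear_combination -hs - c * hz
  obtain ⟨γ, hγ⟩ := Ideal.mem_span_singleton'.mp (h.h1 _ h2)
  have h3 : a * (x + α * c + γ * b) = 0 := by
    linear_combination hs + c * hz - b * (-hγ) 
  have h4 : x + α * c + γ * b = 0 := by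
    rcases mul_eq_zero.mp h3 with h5 | h5
    · exact absurd h5 h.h0
    · exact h5
  refine ⟨β, -α, γ, ?_, ?_, ?_⟩
  · linear_combination h4
  · linear_combination -hγ
  · linear_combination -hz

/-- Exactness at the next spot of the Koszul complex. -/
lemma E2 (h : RegSeq a b c) {p q r : MvPolynomial (Fin 3) K} (h2 : p * b = q * a)
    (h3 : r * a = p * c) : ∃ t, p = t * a ∧ q = t * b ∧ r = t * c := by
  have h1 : b * p ∈ Ideal.span {a} := Ideal.mem_span_singleton'.mpr ⟨q, by linear_combination -h2⟩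
  obtain ⟨t, ht⟩ := Ideal.mem_span_singleton'.mp (h.h1 _ h1)
  refine ⟨t, ht.symm, ?_, ?_⟩
  · have : a * (q - t * b) = 0 := by
      rw [← ht] at h2
      linear_combination -h2
    rcases mul_eq_zero.mp this with h5 | h5
    · exact absurd h5 h.h0
    · linear_combination h5
  · have : a * (r - t * c) = 0 := by
      rw [← ht] at h3
      linear_combination h3
    rcases mul_eq_zero.mp this with h5 | h5
    · exact absurd h5 h.h0
    · linear_combination h5

end RegSeq

section Decomp

variable {a b c : MvPolynomial (Fin 3) K}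

lemma homog_decomp1 (ha : a ∈ Hd K 3) {k : ℕ} {g x : MvPolynomial (Fin 3) K} (hg : g ∈ Hd K (3 + k))
    (hs : x * a = g) : homogeneousComponent k x * a = g := by
  have h := congrArg (homogeneousComponent (3 + k)) hs
  rw [mul_comm, comp_mul ha, homogeneousComponent_eq_self hg] at h
  rw [mul_comm, h]

lemma homog_decomp2 (ha : a ∈ Hd K 3) (hb : b ∈ Hd K 3) {k : ℕ} {g x y : MvPolynomial (Fin 3) K}
    (hg : g ∈ Hd K (3 + k)) (hs : x * a + y * b = g) :
    homogeneousComponent k x * a + homogeneousComponent k y * b = g := by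
  have h := congrArg (homogeneousComponent (3 + k)) hs
  rw [map_add, mul_comm x, mul_comm y, comp_mul ha, comp_mul hb, homogeneousComponent_eq_self hg] at h
  rw [mul_comm _ a, mul_comm _ b, h]

lemma homog_decomp3 (ha : a ∈ Hd K 3) (hb : b ∈ Hd K 3) (hc : c ∈ Hd K 3) {k : ℕ}
    {g x y z : MvPolynomial (Fin 3) K}
    (hg : g ∈ Hd K (3 + k)) (hs : x * a + y * b + z * c = g) :
    homogeneousComponent k x * a + homogeneousComponent k y * b + homogeneousComponent k z * c = g := by
  have h := congrArg (homogeneousComponent (3 + k)) hs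
  rw [map_add, map_add, mul_comm x, mul_comm y, mul_comm z, comp_mul ha, comp_mul hb, comp_mul hc,
    homogeneousComponent_eq_self hg] at h
  rw [mul_comm _ a, mul_comm _ b, mul_comm _ c, h]

lemma low_zero (ha : a ∈ Hd K 3) (hb : b ∈ Hd K 3) (hc : c ∈ Hd K 3) {n : ℕ} (hn : n < 3)
    {g x y z : MvPolynomial (Fin 3) K} (hg : g ∈ Hd K n) (hs : x * a + y * b + z * c = g) : g = 0 := by
  have h := congrArg (homogeneousComponent n) hs
  rw [map_add, map_add, mul_comm x, mul_comm y, mul_comm z, comp_mul_low ha hn, comp_mul_low hb hn,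
    comp_mul_low hc hn, homogeneousComponent_eq_self hg] at h
  simpa using h.symm

end Decomp

section Dims

variable {a b c : MvPolynomial (Fin 3) K}

lemma degPart_low (ha : a ∈ Hd K 3) (hb : b ∈ Hd K 3) (hc : c ∈ Hd K 3) {n : ℕ} (hn : n < 3) :
    degPart (Ideal.span {a, b, c}) n = ⊥ := by
  rw [eq_bot_iff]
  intro g hg
  obtain ⟨h1, h2⟩ := mem_degPart.mp hg
  obtain ⟨x, y, z, hs⟩ := mem_span3.mp h1
  exact (Submodule.mem_bot K).mpr (low_zero ha hb hc hn h2 hs)

lemma degPart_span_a (ha : a ∈ Hd K 3) (k : ℕ) :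
    degPart (Ideal.span {a}) (3 + k) = gmul a (Hd K k) := by
  ext g
  rw [mem_degPart, mem_gmul]
  constructor
  · rintro ⟨h1, h2⟩
    obtain ⟨x, hx⟩ := Ideal.mem_span_singleton'.mp h1
    have := homog_decomp1 ha h2 hx
    exact ⟨homogeneousComponent k x, homogeneousComponent_mem k x, by rw [mul_comm]; exact this⟩
  · rintro ⟨u, hu, rfl⟩
    exact ⟨Ideal.mem_span_singleton'.mpr ⟨u, mul_comm u a⟩, Hd_mul_mem ha hu⟩

lemma degPart_span_ab (ha : a ∈ Hd K 3) (hb : b ∈ Hd K 3) (k : ℕ) :
    degPart (Ideal.span {a, b}) (3 + k) = degPart (Ideal.span {a}) (3 + k) ⊔ gmul b (Hd K k) := by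
  ext g
  rw [Submodule.mem_sup, mem_degPart]
  constructor
  · rintro ⟨h1, h2⟩
    obtain ⟨x, y, hs⟩ := Ideal.mem_span_pair.mp h1
    have := homog_decomp2 ha hb h2 hs
    refine ⟨homogeneousComponent k x * a, mem_degPart.mpr
      ⟨Ideal.mem_span_singleton'.mpr ⟨_, rfl⟩, ?_⟩, b * homogeneousComponent k y,
      mul_mem_gmul (homogeneousComponent_mem k y), ?_⟩
    · rw [add_comm]
      exact Hd_mul_mem (homogeneousComponent_mem k x) ha
    · rw [mul_comm b]; exact this
  · rintro ⟨u, hu, v, hv, rfl⟩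
    obtain ⟨hu1, hu2⟩ := mem_degPart.mp hu
    obtain ⟨w, hw, rfl⟩ := mem_gmul.mp hv
    refine ⟨?_, Submodule.add_mem _ hu2 (Hd_mul_mem hb hw)⟩
    obtain ⟨x, rfl⟩ := Ideal.mem_span_singleton'.mp hu1
    exact Ideal.mem_span_pair.mpr ⟨x, w, by ring⟩

lemma degPart_span_abc (ha : a ∈ Hd K 3) (hb : b ∈ Hd K 3) (hc : c ∈ Hd K 3) (k : ℕ) :
    degPart (Ideal.span {a, b, c}) (3 + k) = degPart (Ideal.span {a, b}) (3 + k) ⊔ gmul c (Hd K k) := by
  ext g
  rw [Submodule.mem_sup, mem_degPart]
  constructor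
  · rintro ⟨h1, h2⟩
    obtain ⟨x, y, z, hs⟩ := mem_span3.mp h1
    have := homog_decomp3 ha hb hc h2 hs
    refine ⟨homogeneousComponent k x * a + homogeneousComponent k y * b, mem_degPart.mpr
      ⟨Ideal.mem_span_pair.mpr ⟨_, _, rfl⟩, ?_⟩, c * homogeneousComponent k z,
      mul_mem_gmul (homogeneousComponent_mem k z), ?_⟩
    · refine Submodule.add_mem _ ?_ ?_
      · rw [add_comm]
        exact Hd_mul_mem (homogeneousComponent_mem k x) ha
      · rw [add_comm]
        exact Hd_mul_mem (homogeneousComponent_mem k y) hb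
    · rw [mul_comm c]; exact this
  · rintro ⟨u, hu, v, hv, rfl⟩
    obtain ⟨hu1, hu2⟩ := mem_degPart.mp hu
    obtain ⟨w, hw, rfl⟩ := mem_gmul.mp hv
    refine ⟨?_, Submodule.add_mem _ hu2 (Hd_mul_mem hc hw)⟩
    obtain ⟨x, y, rfl⟩ := Ideal.mem_span_pair.mp hu1
    exact mem_span3.mpr ⟨x, y, w, by ring⟩

/-- Generic dimension step. -/
lemma finrank_step {A B : Submodule K (MvPolynomial (Fin 3) K)} {g : MvPolynomial (Fin 3) K} {k : ℕ}
    (hg0 : g ≠ 0) (hgd : g ∈ Hd K 3) (hA : A ≤ Hd K (3 + k))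
    (hint : A ⊓ gmul g (Hd K k) = gmul g B) :
    finrank K ↥(A ⊔ gmul g (Hd K k)) + finrank K B = finrank K A + finrank K (Hd K k) := by
  have h1 : gmul g (Hd K k) ≤ Hd K (3 + k) := gmul_le_Hd hgd le_rfl
  have := fin_of_le hA
  have := fin_of_le h1
  have h2 := Submodule.finrank_sup_add_finrank_inf_eq A (gmul g (Hd K k))
  rw [hint, finrank_gmul hg0, finrank_gmul hg0] at h2
  exact h2

/-- The table of dimensions of the degree `d` part of the ideal of a regular sequence. -/
def ff : ℕ → ℕ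
  | 3 => 3
  | 4 => 9
  | 5 => 18
  | 6 => 27
  | 7 => 36
  | _ => 0

lemma finrank_bot' : finrank K (⊥ : Submodule K (MvPolynomial (Fin 3) K)) = 0 := finrank_bot K _

theorem finrank_F (h : RegSeq a b c) (ha : a ∈ Hd K 3) (hb : b ∈ Hd K 3) (hc : c ∈ Hd K 3) {d : ℕ}
    (hd : d ≤ 7) : finrank K (degPart (Ideal.span {a, b, c}) d) = ff d := by
  -- the first ideal
  have hA1 : ∀ k, finrank K (degPart (Ideal.span {a}) (3 + k)) = finrank K (Hd K k) := fun k => by
    rw [degPart_span_a ha, finrank_gmul h.h0]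
  have hA1low : ∀ n, n < 3 → degPart (Ideal.span {a}) n = ⊥ := by
    intro n hn
    rw [eq_bot_iff]
    intro g hg
    obtain ⟨h1, h2⟩ := mem_degPart.mp hg
    obtain ⟨x, hs⟩ := Ideal.mem_span_singleton'.mp h1
    exact (Submodule.mem_bot K).mpr (low_zero (x := x) (y := 0) (z := 0) ha hb hc hn h2 (by simpa using hs))
  have hA2low : ∀ n, n < 3 → degPart (Ideal.span {a, b}) n = ⊥ := by
    intro n hn
    rw [eq_bot_iff]
    intro g hg
    obtain ⟨h1, h2⟩ := mem_degPart.mp hg
    obtain ⟨x, y, hs⟩ := Ideal.mem_span_pair.mp h1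
    exact (Submodule.mem_bot K).mpr (low_zero (x := x) (y := y) (z := 0) ha hb hc hn h2 (by simpa using hs))
  have hb0 : b ≠ 0 := by
    rintro rfl
    have h1 := h.h1 1 (by simp)
    rw [Ideal.mem_span_singleton'] at h1
    obtain ⟨x, hx⟩ := h1
    have h2 := low_zero (x := x) (y := 0) (z := 0) (n := 0) ha (Submodule.zero_mem _) hc (by omega)
      (isHomogeneous_one _ _) (by simpa using hx)
    exact one_ne_zero h2
  have hc0 : c ≠ 0 := by
    rintro rfl
    have h1 := h.h2 1 (by simp)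
    rw [Ideal.mem_span_pair] at h1
    obtain ⟨x, y, hx⟩ := h1
    have h2 := low_zero (x := x) (y := y) (z := 0) (n := 0) ha hb (Submodule.zero_mem _) (by omega)
      (isHomogeneous_one _ _) (by simpa using hx)
    exact one_ne_zero h2
  -- the second ideal
  have hA2 : ∀ k, finrank K (degPart (Ideal.span {a, b}) (3 + k)) + finrank K (degPart (Ideal.span {a}) k)
      = finrank K (degPart (Ideal.span {a}) (3 + k)) + finrank K (Hd K k) := by
    intro k
    rw [degPart_span_ab ha hb]
    refine finrank_step hb0 hb inf_le_right ?_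
    ext g
    rw [Submodule.mem_inf, mem_gmul, mem_gmul, mem_degPart]
    constructor
    · rintro ⟨⟨h1, _⟩, u, hu, rfl⟩
      exact ⟨u, mem_degPart.mpr ⟨h.h1 u h1, hu⟩, rfl⟩
    · rintro ⟨u, hu', rfl⟩
      obtain ⟨h1, hu⟩ := mem_degPart.mp hu'
      refine ⟨⟨?_, Hd_mul_mem hb hu⟩, u, hu, rfl⟩
      exact Ideal.mul_mem_left _ _ h1
  have hA3 : ∀ k, finrank K (degPart (Ideal.span {a, b, c}) (3 + k)) + finrank K (degPart (Ideal.span {a, b}) k)
      = finrank K (degPart (Ideal.span {a, b}) (3 + k)) + finrank K (Hd K k) := by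
    intro k
    rw [degPart_span_abc ha hb hc]
    refine finrank_step hc0 hc inf_le_right ?_
    ext g
    rw [Submodule.mem_inf, mem_gmul, mem_gmul, mem_degPart]
    constructor
    · rintro ⟨⟨h1, _⟩, u, hu, rfl⟩
      exact ⟨u, mem_degPart.mpr ⟨h.h2 u h1, hu⟩, rfl⟩
    · rintro ⟨u, hu', rfl⟩
      obtain ⟨h1, hu⟩ := mem_degPart.mp hu'
      refine ⟨⟨?_, Hd_mul_mem hc hu⟩, u, hu, rfl⟩
      exact Ideal.mul_mem_left _ _ h1
  have s0 : finrank K (Hd K 0) = 1 := by rw [finrank_Hd]; rfl
  have s1 : finrank K (Hd K 1) = 3 := by rw [finrank_Hd]; rfl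
  have s2 : finrank K (Hd K 2) = 6 := by rw [finrank_Hd]; rfl
  have s3 : finrank K (Hd K 3) = 10 := by rw [finrank_Hd]; rfl
  have s4 : finrank K (Hd K 4) = 15 := by rw [finrank_Hd]; rfl
  have a3 : finrank K (degPart (Ideal.span {a}) 3) = 1 := (hA1 0).trans s0
  have a4 : finrank K (degPart (Ideal.span {a}) 4) = 3 := (hA1 1).trans s1
  have a5 : finrank K (degPart (Ideal.span {a}) 5) = 6 := (hA1 2).trans s2
  have a6 : finrank K (degPart (Ideal.span {a}) 6) = 10 := (hA1 3).trans s3
  have a7 : finrank K (degPart (Ideal.span {a}) 7) = 15 := (hA1 4).trans s4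
  have a0 : finrank K (degPart (Ideal.span {a}) 0) = 0 := by rw [hA1low 0 (by omega), finrank_bot']
  have a1 : finrank K (degPart (Ideal.span {a}) 1) = 0 := by rw [hA1low 1 (by omega), finrank_bot']
  have a2 : finrank K (degPart (Ideal.span {a}) 2) = 0 := by rw [hA1low 2 (by omega), finrank_bot']
  have b0 : finrank K (degPart (Ideal.span {a, b}) 0) = 0 := by rw [hA2low 0 (by omega), finrank_bot']
  have b1 : finrank K (degPart (Ideal.span {a, b}) 1) = 0 := by rw [hA2low 1 (by omega), finrank_bot']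
  have b2 : finrank K (degPart (Ideal.span {a, b}) 2) = 0 := by rw [hA2low 2 (by omega), finrank_bot']
  have b3 : finrank K (degPart (Ideal.span {a, b}) 3) = 2 := by
    have h1 : finrank K (degPart (Ideal.span {a, b}) 3) + finrank K (degPart (Ideal.span {a}) 0)
      = finrank K (degPart (Ideal.span {a}) 3) + finrank K (Hd K 0) := hA2 0
    omega
  have b4 : finrank K (degPart (Ideal.span {a, b}) 4) = 6 := by
    have h1 : finrank K (degPart (Ideal.span {a, b}) 4) + finrank K (degPart (Ideal.span {a}) 1)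
      = finrank K (degPart (Ideal.span {a}) 4) + finrank K (Hd K 1) := hA2 1
    omega
  have b5 : finrank K (degPart (Ideal.span {a, b}) 5) = 12 := by
    have h1 : finrank K (degPart (Ideal.span {a, b}) 5) + finrank K (degPart (Ideal.span {a}) 2)
      = finrank K (degPart (Ideal.span {a}) 5) + finrank K (Hd K 2) := hA2 2
    omega
  have b6 : finrank K (degPart (Ideal.span {a, b}) 6) = 19 := by
    have h1 : finrank K (degPart (Ideal.span {a, b}) 6) + finrank K (degPart (Ideal.span {a}) 3)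
      = finrank K (degPart (Ideal.span {a}) 6) + finrank K (Hd K 3) := hA2 3
    omega
  have b7 : finrank K (degPart (Ideal.span {a, b}) 7) = 27 := by
    have h1 : finrank K (degPart (Ideal.span {a, b}) 7) + finrank K (degPart (Ideal.span {a}) 4)
      = finrank K (degPart (Ideal.span {a}) 7) + finrank K (Hd K 4) := hA2 4
    omega
  interval_cases d
  · rw [degPart_low ha hb hc (by omega), finrank_bot']; rfl
  · rw [degPart_low ha hb hc (by omega), finrank_bot']; rfl
  · rw [degPart_low ha hb hc (by omega), finrank_bot']; rfl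
  · have h1 : finrank K (degPart (Ideal.span {a, b, c}) 3) + finrank K (degPart (Ideal.span {a, b}) 0)
      = finrank K (degPart (Ideal.span {a, b}) 3) + finrank K (Hd K 0) := hA3 0
    simp only [ff]
    omega
  · have h1 : finrank K (degPart (Ideal.span {a, b, c}) 4) + finrank K (degPart (Ideal.span {a, b}) 1)
      = finrank K (degPart (Ideal.span {a, b}) 4) + finrank K (Hd K 1) := hA3 1
    simp only [ff]
    omega
  · have h1 : finrank K (degPart (Ideal.span {a, b, c}) 5) + finrank K (degPart (Ideal.span {a, b}) 2)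
      = finrank K (degPart (Ideal.span {a, b}) 5) + finrank K (Hd K 2) := hA3 2
    simp only [ff]
    omega
  · have h1 : finrank K (degPart (Ideal.span {a, b, c}) 6) + finrank K (degPart (Ideal.span {a, b}) 3)
      = finrank K (degPart (Ideal.span {a, b}) 6) + finrank K (Hd K 3) := hA3 3
    simp only [ff]
    omega
  · have h1 : finrank K (degPart (Ideal.span {a, b, c}) 7) + finrank K (degPart (Ideal.span {a, b}) 4)
      = finrank K (degPart (Ideal.span {a, b}) 7) + finrank K (Hd K 4) := hA3 4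
    simp only [ff]
    omega

end Dims

end Vale.Agent.Lib.P200
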