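import Vale.Agent.Lib.P200.Pair

namespace Vale.Agent.Lib.P200

open MvPolynomial Module

variable {K : Type*} [Field K]

/-- Exponent triples of total degree `d`. -/
def tri (d : ℕ) : Finset (ℕ × ℕ × ℕ) :=
  (Finset.range (d + 1) ×ˢ Finset.range (d + 1) ×ˢ Finset.range (d + 1)).filter
    (fun t => t.1 + t.2.1 + t.2.2 = d)

/-- The shadow of a set of exponent triples. -/
def sh (M : Finset (ℕ × ℕ × ℕ)) : Finset (ℕ × ℕ × ℕ) :=
  M.image (fun t => (t.1 + 1, t.2.1, t.2.2)) ∪ M.image (fun t => (t.1, t.2.1 + 1, t.2.2)) ∪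
    M.image (fun t => (t.1, t.2.1, t.2.2 + 1))

/-- Macaulay's lower bounds in low degree. -/
def mac : ℕ → ℕ → ℕ
  | 0, 0 => 0
  | 0, _ => 3
  | 1, 0 => 0
  | 1, 1 => 3
  | 1, 2 => 5
  | 1, _ => 6
  | 2, 0 => 0
  | 2, 1 => 3
  | 2, 2 => 5
  | 2, 3 => 6
  | 2, 4 => 8
  | 2, 5 => 9
  | 2, _ => 10
  | _, _ => 0

set_option maxRecDepth 100000 in
lemma mac_check : ∀ d ∈ Finset.range 3, ∀ M ∈ (tri d).powerset, mac d M.card ≤ (sh M).card := by
  decide

lemma mac_mono_aux : ∀ d ∈ Finset.range 3, ∀ q' ∈ Finset.range 7, ∀ q ∈ Finset.range (q' + 1),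
    mac d q ≤ mac d q' := by
  decide

lemma card_tri_le {d : ℕ} (hd : d ≤ 2) : (tri d).card ≤ 6 := by
  interval_cases d <;> decide

lemma mac_mono {d q q' : ℕ} (hd : d ≤ 2) (hq : q ≤ q') (hq' : q' ≤ 6) : mac d q ≤ mac d q' :=
  mac_mono_aux d (Finset.mem_range.mpr (by omega)) q' (Finset.mem_range.mpr (by omega)) q
    (Finset.mem_range.mpr (by omega))

/-- Exponent vectors as triples. -/
def code (x : Fin 3 →₀ ℕ) : ℕ × ℕ × ℕ := (x 0, x 1, x 2)

lemma code_inj : Function.Injective code := by
  intro x y h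
  simp only [code, Prod.mk.injEq] at h
  ext i
  fin_cases i
  · exact h.1
  · exact h.2.1
  · exact h.2.2

section

variable (m : MonomialOrder (Fin 3))

open Classical in
/-- The leading exponents of the nonzero elements of a subspace of forms of degree `d`. -/
noncomputable def lmSet (d : ℕ) (V : Submodule K (MvPolynomial (Fin 3) K)) : Finset (Fin 3 →₀ ℕ) :=
  ((Finset.univ : Finset (Fin 3)).finsuppAntidiag d).filter
    (fun t => ∃ g ∈ V, g ≠ 0 ∧ m.degree g = t)

lemma mem_lmSet {d : ℕ} {V : Submodule K (MvPolynomial (Fin 3) K)} (hV : V ≤ Hd K d)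
    {t : Fin 3 →₀ ℕ} : t ∈ lmSet m d V ↔ ∃ g ∈ V, g ≠ 0 ∧ m.degree g = t := by
  classical
  unfold lmSet
  rw [Finset.mem_filter]
  refine ⟨fun h => h.2, fun h => ⟨?_, h⟩⟩
  obtain ⟨g, hg, hg0, rfl⟩ := h
  rw [Finset.mem_finsuppAntidiag]
  refine ⟨?_, Finset.subset_univ _⟩
  have h1 : m.degree g ∈ g.support := m.degree_mem_support hg0
  have h2 := (hV hg : g.IsHomogeneous d).degree_eq_sum_deg_support h1
  rw [h2, ← Finsupp.degree_eq_sum]
  rfl

/-- The dimension is at most the number of leading exponents. -/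
lemma finrank_le_lmSet {d : ℕ} {V : Submodule K (MvPolynomial (Fin 3) K)} (hV : V ≤ Hd K d) :
    finrank K V ≤ (lmSet m d V).card := by
  classical
  have := fin_of_le hV
  let φ : V →ₗ[K] (↥(lmSet m d V) → K) :=
    { toFun := fun g t => coeff t.1 g.1
      map_add' := fun x y => by ext t; simp
      map_smul' := fun c x => by ext t; simp }
  have hφ : Function.Injective φ := by
    rw [← LinearMap.ker_eq_bot, LinearMap.ker_eq_bot']
    intro g hg
    by_contra hne
    have hne' : g.1 ≠ 0 := fun h => hne (Subtype.ext h)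
    have hmem : m.degree g.1 ∈ lmSet m d V := (mem_lmSet m hV).mpr ⟨g.1, g.2, hne', rfl⟩
    have h1 := congrFun hg ⟨_, hmem⟩
    exact (m.coeff_degree_ne_zero_iff.mpr hne') h1
  have h2 := LinearMap.finrank_le_finrank_of_injective hφ
  rwa [Module.finrank_fintype_fun_eq_card, Fintype.card_coe] at h2

/-- A set of leading exponents is at most as large as the dimension. -/
lemma card_le_finrank {U : Submodule K (MvPolynomial (Fin 3) K)} [Module.Finite K U]
    {T : Finset (Fin 3 →₀ ℕ)} (hT : ∀ t ∈ T, ∃ g ∈ U, g ≠ 0 ∧ m.degree g = t) :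
    T.card ≤ finrank K U := by
  classical
  choose! G hG1 hG2 hG3 using hT
  let G' : ↥T → U := fun t => ⟨G t.1, hG1 t.1 t.2⟩
  have hli : LinearIndependent K G' := by
    rw [Fintype.linearIndependent_iff]
    intro c hc i
    by_contra hi
    have hne : (Finset.univ.filter fun t => c t ≠ 0).Nonempty :=
      ⟨i, Finset.mem_filter.mpr ⟨Finset.mem_univ _, hi⟩⟩
    obtain ⟨t0, ht0, hmax⟩ := Finset.exists_max_image _ (fun t : ↥T => m.toSyn t.1) hne
    have ht0c : c t0 ≠ 0 := (Finset.mem_filter.mp ht0).2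
    have h1 : coeff t0.1 (∑ t, c t • G t.1) = 0 := by
      have h2 := congrArg Subtype.val hc
      simp only [AddSubmonoidClass.coe_finsetSum, SetLike.val_smul, G'] at h2
      rw [h2]
      simp
    rw [coeff_sum, Finset.sum_eq_single t0] at h1
    · rw [coeff_smul, smul_eq_mul] at h1
      have h3 : coeff t0.1 (G t0.1) ≠ 0 := by
        have h4 := m.coeff_degree_ne_zero_iff.mpr (hG2 t0.1 t0.2)
        rwa [hG3 t0.1 t0.2] at h4
      exact (mul_ne_zero ht0c h3) h1
    · intro t _ htne
      rw [coeff_smul, smul_eq_mul]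
      by_cases htc : c t = 0
      · rw [htc, zero_mul]
      · have h5 := hmax t (Finset.mem_filter.mpr ⟨Finset.mem_univ _, htc⟩)
        have h6 : m.toSyn t.1 ≠ m.toSyn t0.1 := fun h =>
          htne (Subtype.ext (m.toSyn.injective h))
        have h7 : m.toSyn (m.degree (G t.1)) < m.toSyn t0.1 := by
          rw [hG3 t.1 t.2]
          exact lt_of_le_of_ne h5 h6
        rw [m.coeff_eq_zero_of_lt h7, mul_zero]
    · intro h
      exact absurd (Finset.mem_univ _) h
  have h8 := hli.fintype_card_le_finrank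
  rwa [Fintype.card_coe] at h8

lemma degree_X_mul (i : Fin 3) {g : MvPolynomial (Fin 3) K} (hg : g ≠ 0) :
    m.degree (X i * g) = Finsupp.single i 1 + m.degree g := by
  rw [m.degree_mul (X_ne_zero i) hg, m.degree_X]

end

/-- Macaulay's theorem in low degree. -/
theorem macaulay {d : ℕ} (hd : d ≤ 2) {V : Submodule K (MvPolynomial (Fin 3) K)} (hV : V ≤ Hd K d) :
    mac d (finrank K V) ≤ finrank K ↥(Hd K 1 * V) := by
  classical
  let m : MonomialOrder (Fin 3) := MonomialOrder.lex
  have hU := mul_le_Hd hV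
  have := fin_of_le hU
  let T := lmSet m d V
  have hcard : (T.image code).card = T.card := Finset.card_image_of_injective _ code_inj
  have hT1 := finrank_le_lmSet m hV
  have hsub : T.image code ⊆ tri d := by
    intro t ht
    obtain ⟨x, hx, rfl⟩ := Finset.mem_image.mp ht
    obtain ⟨g, hg, hg0, rfl⟩ := (mem_lmSet m hV).mp hx
    have h1 : m.degree g ∈ g.support := m.degree_mem_support hg0
    have h2 := (hV hg : g.IsHomogeneous d).degree_eq_sum_deg_support h1
    have h3 : ∑ i ∈ (m.degree g).support, (m.degree g) i = Finsupp.degree (m.degree g) := rfl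
    rw [h3, Finsupp.degree_eq_sum, Fin.sum_univ_three] at h2
    simp only [tri, code, Finset.mem_filter, Finset.mem_product, Finset.mem_range]
    omega
  have hT2 := mac_check d (Finset.mem_range.mpr (by omega)) _ (Finset.mem_powerset.mpr hsub)
  -- the shadow
  let T' : Finset (Fin 3 →₀ ℕ) := T.image (fun t => Finsupp.single 0 1 + t) ∪
    T.image (fun t => Finsupp.single 1 1 + t) ∪ T.image (fun t => Finsupp.single 2 1 + t)
  have hsh : sh (T.image code) = T'.image code := by
    simp only [sh, T', Finset.image_union, Finset.image_image]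
    congr 1
    · congr 1
      · refine Finset.image_congr fun t _ => ?_
        simp [code, add_comm]
      · refine Finset.image_congr fun t _ => ?_
        simp [code, add_comm]
    · refine Finset.image_congr fun t _ => ?_
      simp [code, add_comm]
  have hT3 : T'.card ≤ finrank K ↥(Hd K 1 * V) := by
    refine card_le_finrank m ?_
    have key : ∀ (i : Fin 3) (t : Fin 3 →₀ ℕ), t ∈ T → ∃ g ∈ Hd K 1 * V, g ≠ 0 ∧
        m.degree g = Finsupp.single i 1 + t := by
      intro i t ht
      obtain ⟨g, hg, hg0, rfl⟩ := (mem_lmSet m hV).mp ht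
      exact ⟨X i * g, Submodule.mul_mem_mul (X_mem_Hd i) hg, mul_ne_zero (X_ne_zero _) hg0,
        degree_X_mul m i hg0⟩
    intro t ht
    simp only [T', Finset.mem_union, Finset.mem_image] at ht
    rcases ht with (⟨t1, h1, rfl⟩ | ⟨t1, h1, rfl⟩) | ⟨t1, h1, rfl⟩
    · exact key 0 t1 h1
    · exact key 1 t1 h1
    · exact key 2 t1 h1
  have hcard' : (T'.image code).card = T'.card := Finset.card_image_of_injective _ code_inj
  rw [hsh, hcard', hcard] at hT2
  have hT6 : T.card ≤ 6 := by
    rw [← hcard]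
    exact le_trans (Finset.card_le_card hsub) (card_tri_le hd)
  exact le_trans (mac_mono hd hT1 hT6) (le_trans hT2 hT3)

end Vale.Agent.Lib.P200
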