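import Vale.Agent.Lib.P200.LM

namespace Vale.Agent.Lib.P200

open MvPolynomial Module

variable {K : Type*} [Field K]

/-- Nonzero constants are units. -/
lemma isUnit_of_totalDegree_zero {p : MvPolynomial (Fin 3) K} (h0 : p ≠ 0) (h : p.totalDegree = 0) :
    IsUnit p := by
  rw [totalDegree_eq_zero_iff_eq_C] at h
  rw [h] at h0 ⊢
  exact (isUnit_iff_ne_zero.mpr (by simpa using h0)).map (C : K →+* MvPolynomial (Fin 3) K)

lemma totalDegree_of_Hd {p : MvPolynomial (Fin 3) K} {d : ℕ} (hp : p ∈ Hd K d) (h0 : p ≠ 0) :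
    p.totalDegree = d := IsHomogeneous.totalDegree hp h0

/-- A linear form is prime. -/
lemma lin_prime {p : MvPolynomial (Fin 3) K} (hp : p ∈ Hd K 1) (h0 : p ≠ 0) : Prime p := by
  rw [← UniqueFactorizationMonoid.irreducible_iff_prime, irreducible_iff]
  have hdeg := totalDegree_of_Hd hp h0
  constructor
  · intro hu
    rw [isUnit_iff_totalDegree_of_isReduced] at hu
    omega
  · intro x y hxy
    have hx : x ≠ 0 := by rintro rfl; simp at hxy; exact h0 hxy
    have hy : y ≠ 0 := by rintro rfl; simp at hxy; exact h0 hxy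
    rw [hxy, totalDegree_mul_of_isDomain hx hy] at hdeg
    rcases Nat.eq_zero_or_pos x.totalDegree with h | h
    · exact Or.inl (isUnit_of_totalDegree_zero hx h)
    · exact Or.inr (isUnit_of_totalDegree_zero hy (by omega))

/-- Homogeneous quotient. -/
lemma homog_quot {g v r : MvPolynomial (Fin 3) K} {e k : ℕ} (hg : g ∈ Hd K e) (hv : v ∈ Hd K (e + k))
    (h : v = g * r) : v = g * homogeneousComponent k r := by
  have h1 := congrArg (homogeneousComponent (e + k)) h
  rwa [comp_mul hg, homogeneousComponent_eq_self hv] at h1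

/-- Divisibility among linear forms gives proportionality. -/
lemma lin_dvd {p q : MvPolynomial (Fin 3) K} (hp : p ∈ Hd K 1) (hq : q ∈ Hd K 1)
    (h : p ∣ q) : ∃ κ : K, q = C κ * p := by
  obtain ⟨r, hr⟩ := h
  have h1 := homog_quot (e := 1) (k := 0) hp hq hr
  rw [homogeneousComponent_zero] at h1
  exact ⟨_, by rw [h1, mul_comm]⟩

lemma lin_dvd_symm {p q : MvPolynomial (Fin 3) K} (hp : p ∈ Hd K 1) (hq : q ∈ Hd K 1)
    (hq0 : q ≠ 0) (h : p ∣ q) : q ∣ p := by
  obtain ⟨κ, rfl⟩ := lin_dvd hp hq h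
  have hκ : κ ≠ 0 := by
    rintro rfl
    simp at hq0
  refine ⟨C κ⁻¹, ?_⟩
  have : (C κ⁻¹ : MvPolynomial (Fin 3) K) * C κ = 1 := by
    rw [← C_mul, inv_mul_cancel₀ hκ, C_1]
  linear_combination -p * this

/-- Independence of two elements over the field. -/
def Ind2 (x y : MvPolynomial (Fin 3) K) : Prop := ∀ α β : K, α • x + β • y = 0 → α = 0 ∧ β = 0

lemma Ind2.left_ne {x y : MvPolynomial (Fin 3) K} (h : Ind2 x y) : x ≠ 0 := by
  rintro rfl
  have := (h 1 0 (by simp)).1
  exact one_ne_zero this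

lemma Ind2.right_ne {x y : MvPolynomial (Fin 3) K} (h : Ind2 x y) : y ≠ 0 := by
  rintro rfl
  have := (h 0 1 (by simp)).2
  exact one_ne_zero this

/-- A linear syzygy between independent quadrics forces a common linear factor. -/
theorem common_factor_two {u v p q : MvPolynomial (Fin 3) K} (hv : v ∈ Hd K 2)
    (hp : p ∈ Hd K 1) (hq : q ∈ Hd K 1) (hind : Ind2 u v) (hs : p * u + q * v = 0)
    (hne : ¬ (p = 0 ∧ q = 0)) :
    ∃ l a b, l ∈ Hd K 1 ∧ a ∈ Hd K 1 ∧ b ∈ Hd K 1 ∧ l ≠ 0 ∧ u = l * a ∧ v = l * b := by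
  have hu0 := hind.left_ne
  have hv0 := hind.right_ne
  have hp0 : p ≠ 0 := by
    rintro rfl
    have hq0 : q ≠ 0 := fun h => hne ⟨rfl, h⟩
    simp only [zero_mul, zero_add, mul_eq_zero] at hs
    tauto
  have hq0 : q ≠ 0 := by
    rintro rfl
    simp only [zero_mul, add_zero, mul_eq_zero] at hs
    tauto
  have hpq : ¬ p ∣ q := by
    intro hd
    obtain ⟨κ, rfl⟩ := lin_dvd hp hq hd
    have h1 : p * (u + C κ * v) = 0 := by linear_combination hs
    have h2 : u + C κ * v = 0 := by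
      rcases mul_eq_zero.mp h1 with h3 | h3
      · exact absurd h3 hp0
      · exact h3
    have h3 := (hind 1 κ (by rw [one_smul, smul_eq_C_mul]; exact h2)).1
    exact one_ne_zero h3
  have hpr := lin_prime hp hp0
  have hdv : p ∣ q * v := ⟨-u, by linear_combination hs⟩
  have hpv : p ∣ v := (hpr.dvd_or_dvd hdv).resolve_left hpq
  obtain ⟨r, hr⟩ := hpv
  have hr' := homog_quot (e := 1) (k := 1) hp hv hr
  set r1 := homogeneousComponent 1 r with hr1
  have hu' : u = r1 * (-q) := by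
    have h1 : p * (u + q * r1) = 0 := by
      rw [hr'] at hs
      linear_combination hs
    have h2 : u + q * r1 = 0 := by
      rcases mul_eq_zero.mp h1 with h3 | h3
      · exact absurd h3 hp0
      · exact h3
    linear_combination h2
  have hr10 : r1 ≠ 0 := by
    intro h
    rw [h, mul_zero] at hr'
    exact hv0 hr'
  exact ⟨r1, -q, p, homogeneousComponent_mem 1 r, Submodule.neg_mem _ hq, hp, hr10, hu', by
    rw [hr', mul_comm]⟩

lemma comp_ne_zero_aux {t : MvPolynomial (Fin 3) K} (ht : t.totalDegree ≤ 1)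
    (h1 : homogeneousComponent 1 t = 0) : t = C (coeff 0 t) := by
  ext m
  rw [coeff_C]
  by_cases hm : m = 0
  · subst hm
    simp
  · rw [if_neg (Ne.symm hm)]
    have hdeg : m.degree ≠ 0 := by
      intro h
      exact hm ((Finsupp.degree_eq_zero_iff m).mp h)
    by_cases hm1 : m.degree = 1
    · have h2 := congrArg (coeff m) h1
      rwa [coeff_homogeneousComponent, if_pos hm1, coeff_zero] at h2
    · refine coeff_eq_zero_of_totalDegree_lt ?_
      have : ∑ i ∈ m.support, m i = m.degree := rfl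
      rw [this]
      omega

/-- Coprimality of quadrics without linear syzygies, in the form of a statement on quadratic syzygies. -/
theorem quad_syz {x y P Q : MvPolynomial (Fin 3) K} (hx : x ∈ Hd K 2) (hy : y ∈ Hd K 2)
    (hP : P ∈ Hd K 2)
    (hsyz : ∀ p ∈ Hd K 1, ∀ q ∈ Hd K 1, p * x + q * y = 0 → p = 0 ∧ q = 0)
    (hs : P * x + Q * y = 0) : ∃ c : K, P = C c * y ∧ Q = - (C c * x) := by
  have hX0 : (X 0 : MvPolynomial (Fin 3) K) ≠ 0 := X_ne_zero _
  have hy0 : y ≠ 0 := by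
    rintro rfl
    have := (hsyz 0 (Submodule.zero_mem _) (X 0) (X_mem_Hd 0) (by simp)).2
    exact hX0 this
  have hx0 : x ≠ 0 := by
    rintro rfl
    have := (hsyz (X 0) (X_mem_Hd 0) 0 (Submodule.zero_mem _) (by simp)).1
    exact hX0 this
  have hrel : IsRelPrime y x := by
    intro d hdy hdx
    obtain ⟨y', hy'⟩ := hdy
    obtain ⟨x', hx'⟩ := hdx
    have hd0 : d ≠ 0 := by
      rintro rfl
      simp at hx'
      exact hx0 hx'
    have hx'0 : x' ≠ 0 := by
      rintro rfl
      simp at hx'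
      exact hx0 hx'
    have hy'0 : y' ≠ 0 := by
      rintro rfl
      simp at hy'
      exact hy0 hy'
    have hdx2 := totalDegree_of_Hd hx hx0
    have hdy2 := totalDegree_of_Hd hy hy0
    rw [hx', totalDegree_mul_of_isDomain hd0 hx'0] at hdx2
    rw [hy', totalDegree_mul_of_isDomain hd0 hy'0] at hdy2
    by_contra hunit
    have hdpos : d.totalDegree ≠ 0 := fun h => hunit (isUnit_of_totalDegree_zero hd0 h)
    -- the syzygy `y' x = x' y`
    have hsz : y' * x - x' * y = 0 := by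
      rw [hx', hy']; ring
    have h1 := congrArg (homogeneousComponent (2 + 1)) hsz
    rw [map_sub, mul_comm y' x, mul_comm x' y, comp_mul hx, comp_mul hy, map_zero] at h1
    have h2 := hsyz (homogeneousComponent 1 y') (homogeneousComponent_mem 1 y')
      (- homogeneousComponent 1 x') (Submodule.neg_mem _ (homogeneousComponent_mem 1 x'))
      (by linear_combination h1)
    have hx'' := comp_ne_zero_aux (t := x') (by omega) (by simpa using h2.2)
    have hy'' := comp_ne_zero_aux (t := y') (by omega) h2.1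
    -- now both are constants
    set α := coeff 0 x'
    set β := coeff 0 y'
    have hs2 : (C β * X 0) * x + (- (C α * X 0)) * y = 0 := by
      rw [hx', hy', hx'', hy'']
      ring
    have hC : ∀ γ : K, (C γ * X 0 : MvPolynomial (Fin 3) K) ∈ Hd K 1 := fun γ =>
      isHomogeneous_C_mul_X γ 0
    have h3 := (hsyz _ (hC β) _ (Submodule.neg_mem _ (hC α)) hs2).1
    have hβ : β = 0 := by
      rcases mul_eq_zero.mp h3 with h4 | h4
      · simpa using h4
      · exact absurd h4 hX0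
    rw [hβ] at hy''
    apply hy'0
    rw [hy'']
    simp
  have hdvd : y ∣ P * x := ⟨-Q, by linear_combination hs⟩
  obtain ⟨c', hc'⟩ := hrel.dvd_of_dvd_mul_right hdvd
  have h1 := homog_quot (e := 2) (k := 0) hy hP hc'
  rw [homogeneousComponent_zero] at h1
  refine ⟨coeff 0 c', by rw [h1, mul_comm], ?_⟩
  have h2 : y * (C (coeff 0 c') * x + Q) = 0 := by
    rw [h1] at hs
    linear_combination hs
  rcases mul_eq_zero.mp h2 with h3 | h3
  · exact absurd h3 hy0
  · linear_combination h3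

lemma X_indep {α β γ : K} (h : C α * X 0 + C β * X 1 + C γ * X 2 = (0 : MvPolynomial (Fin 3) K)) :
    α = 0 ∧ β = 0 ∧ γ = 0 := by
  have hc : ∀ i : Fin 3, coeff (Finsupp.single i 1) (C α * X 0 + C β * X 1 + C γ * X 2 :
      MvPolynomial (Fin 3) K) = 0 := by
    intro i
    rw [h, coeff_zero]
  have e0 := hc 0
  have e1 := hc 1
  have e2 := hc 2
  simp [coeff_add, coeff_C_mul, coeff_X, Finsupp.single_left_inj] at e0 e1 e2
  exact ⟨e0, e1, e2⟩

/-- Chase for a third element multiplying into the span of a pair. -/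
theorem pair_chase {x y z : MvPolynomial (Fin 3) K} (hx : x ∈ Hd K 2) (hy : y ∈ Hd K 2)
    (hsyz : ∀ p ∈ Hd K 1, ∀ q ∈ Hd K 1, p * x + q * y = 0 → p = 0 ∧ q = 0)
    (hz : ∀ i, X i * z ∈ gmul x (Hd K 1) ⊔ gmul y (Hd K 1)) :
    ∃ α β : K, z = α • x + β • y := by
  have hX0 : (X 0 : MvPolynomial (Fin 3) K) ≠ 0 := X_ne_zero _
  have hy0 : y ≠ 0 := by
    rintro rfl
    have := (hsyz 0 (Submodule.zero_mem _) (X 0) (X_mem_Hd 0) (by simp)).2
    exact hX0 this
  have hx0 : x ≠ 0 := by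
    rintro rfl
    have := (hsyz (X 0) (X_mem_Hd 0) 0 (Submodule.zero_mem _) (by simp)).1
    exact hX0 this
  have hdec : ∀ i, ∃ a b : MvPolynomial (Fin 3) K, a ∈ Hd K 1 ∧ b ∈ Hd K 1 ∧ x * a + y * b = X i * z := by
    intro i
    obtain ⟨u, hu, v, hv, huv⟩ := Submodule.mem_sup.mp (hz i)
    obtain ⟨a, ha, rfl⟩ := mem_gmul.mp hu
    obtain ⟨b, hb, rfl⟩ := mem_gmul.mp hv
    exact ⟨a, b, ha, hb, huv⟩
  obtain ⟨a0, b0, ha0, hb0, h0⟩ := hdec 0
  obtain ⟨a1, b1, ha1, hb1, h1⟩ := hdec 1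
  obtain ⟨a2, b2, ha2, hb2, h2⟩ := hdec 2
  have hP : ∀ (i j : Fin 3) {v w : MvPolynomial (Fin 3) K}, v ∈ Hd K 1 → w ∈ Hd K 1 →
      X i * v - X j * w ∈ Hd K 2 := fun i j _ _ hv hw =>
    Submodule.sub_mem _ (Hd_mul_mem (X_mem_Hd i) hv) (Hd_mul_mem (X_mem_Hd j) hw)
  obtain ⟨c01, e01, f01⟩ := quad_syz hx hy (hP 1 0 ha0 ha1) hsyz
    (P := X 1 * a0 - X 0 * a1) (Q := X 1 * b0 - X 0 * b1)
    (by linear_combination X 1 * h0 - X 0 * h1)
  obtain ⟨c12, e12, f12⟩ := quad_syz hx hy (hP 2 1 ha1 ha2) hsyz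
    (P := X 2 * a1 - X 1 * a2) (Q := X 2 * b1 - X 1 * b2)
    (by linear_combination X 2 * h1 - X 1 * h2)
  obtain ⟨c20, e20, f20⟩ := quad_syz hx hy (hP 0 2 ha2 ha0) hsyz
    (P := X 0 * a2 - X 2 * a0) (Q := X 0 * b2 - X 2 * b0)
    (by linear_combination X 0 * h2 - X 2 * h0)
  have hcyc : (C c12 * X 0 + C c20 * X 1 + C c01 * X 2 : MvPolynomial (Fin 3) K) * y = 0 := by
    linear_combination -(X 2 : MvPolynomial (Fin 3) K) * e01 - X 0 * e12 - X 1 * e20
  have hcyc2 : (C c12 * X 0 + C c20 * X 1 + C c01 * X 2 : MvPolynomial (Fin 3) K) = 0 := by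
    rcases mul_eq_zero.mp hcyc with h3 | h3
    · exact h3
    · exact absurd h3 hy0
  obtain ⟨z12, z20, z01⟩ := X_indep hcyc2
  rw [z01] at e01 f01
  rw [z12] at e12 f12
  rw [z20] at e20 f20
  simp only [C_0, zero_mul, neg_zero] at e01 e12 e20 f01 f12 f20
  obtain ⟨t, ta0, ta1, ta2⟩ := (reg_X (K := K)).E2 (p := a0) (q := a1) (r := a2)
    (by linear_combination e01) (by linear_combination e20)
  obtain ⟨t', tb0, tb1, tb2⟩ := (reg_X (K := K)).E2 (p := b0) (q := b1) (r := b2)
    (by linear_combination f01) (by linear_combination f20)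
  have ht : ∃ α : K, t = C α := by
    have h3 := homog_quot (e := 1) (k := 0) (X_mem_Hd 0) ha0 (by rw [ta0, mul_comm])
    rw [homogeneousComponent_zero] at h3
    refine ⟨coeff 0 t, ?_⟩
    have h4 : (X 0 : MvPolynomial (Fin 3) K) * (t - C (coeff 0 t)) = 0 := by
      rw [ta0] at h3
      linear_combination h3
    rcases mul_eq_zero.mp h4 with h5 | h5
    · exact absurd h5 hX0
    · linear_combination h5
  have ht' : ∃ β : K, t' = C β := by
    have h3 := homog_quot (e := 1) (k := 0) (X_mem_Hd 0) hb0 (by rw [tb0, mul_comm])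
    rw [homogeneousComponent_zero] at h3
    refine ⟨coeff 0 t', ?_⟩
    have h4 : (X 0 : MvPolynomial (Fin 3) K) * (t' - C (coeff 0 t')) = 0 := by
      rw [tb0] at h3
      linear_combination h3
    rcases mul_eq_zero.mp h4 with h5 | h5
    · exact absurd h5 hX0
    · linear_combination h5
  obtain ⟨α, rfl⟩ := ht
  obtain ⟨β, rfl⟩ := ht'
  refine ⟨α, β, ?_⟩
  have h4 : (X 0 : MvPolynomial (Fin 3) K) * (z - (C α * x + C β * y)) = 0 := by
    rw [ta0, tb0] at h0
    linear_combination -h0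
  rw [smul_eq_C_mul, smul_eq_C_mul]
  rcases mul_eq_zero.mp h4 with h5 | h5
  · exact absurd h5 hX0
  · linear_combination h5

end Vale.Agent.Lib.P200
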