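import Vale.Agent.Lib.P200.Socle

namespace Vale.Agent.Lib.P200

open MvPolynomial Module

variable {K : Type*} [Field K]

/-- The growth table. -/
def GG : ℕ → ℕ → ℕ
  | 0, 0 => 0
  | 0, _ => 3
  | 1, 0 => 0
  | 1, 1 => 3
  | 1, 2 => 5
  | 1, _ => 6
  | 2, 0 => 0
  | 2, 1 => 2
  | 2, 2 => 4
  | 2, 3 => 5
  | 2, 4 => 6
  | 2, _ => 7
  | 3, 0 => 0
  | 3, 1 => 2
  | 3, 2 => 3
  | 3, 3 => 4
  | 3, 4 => 5
  | 3, 5 => 5
  | 3, _ => 6
  | 4, 0 => 0
  | 4, 1 => 1
  | 4, 2 => 2
  | 4, 3 => 2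
  | 4, _ => 3
  | 5, 0 => 0
  | 5, _ => 1
  | _, _ => 0

/-- The Hilbert function of the complete intersection. -/
def hh : ℕ → ℕ
  | 0 => 1
  | 1 => 3
  | 2 => 6
  | 3 => 7
  | 4 => 6
  | 5 => 3
  | 6 => 1
  | _ => 0

lemma table_dual : ∀ d ∈ Finset.Icc 3 5, ∀ v ∈ Finset.range (hh d + 1),
    ∀ t ∈ Finset.range (hh (5 - d) + 1),
      GG (5 - d) t + v ≤ hh d → GG d v + t ≤ hh (5 - d) := by
  decide

section

variable {a b c : MvPolynomial (Fin 3) K}

/-- The linear functional defining the socle pairing. -/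
theorem exists_lam (h : RegSeq a b c) (ha : a ∈ Hd K 3) (hb : b ∈ Hd K 3) (hc : c ∈ Hd K 3) :
    ∃ l : MvPolynomial (Fin 3) K →ₗ[K] K,
      ∀ g ∈ Hd K 6, l g = 0 ↔ g ∈ degPart (Ideal.span {a, b, c}) 6 := by
  have hF : finrank K (degPart (Ideal.span {a, b, c}) 6) = 27 := finrank_F h ha hb hc (by omega)
  have hs : finrank K (Hd K 6) = 28 := by rw [finrank_Hd]; rfl
  have hle : degPart (Ideal.span {a, b, c}) 6 ≤ Hd K 6 := inf_le_right
  have hex : ∃ g0 ∈ Hd K 6, g0 ∉ degPart (Ideal.span {a, b, c}) 6 := by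
    by_contra hcon
    push Not at hcon
    have : Hd K 6 ≤ degPart (Ideal.span {a, b, c}) 6 := hcon
    have := finrank_mono_Hd this hle
    omega
  obtain ⟨g0, hg0, hg0F⟩ := hex
  obtain ⟨l, hl1, hl2⟩ := Submodule.exists_le_ker_of_notMem hg0F
  refine ⟨l, fun g hg => ⟨fun hlg => ?_, fun hgF => hl2 hgF⟩⟩
  -- the subspace spanned by `F` and `g0` is everything
  have hsup : degPart (Ideal.span {a, b, c}) 6 ⊔ Submodule.span K {g0} = Hd K 6 := by
    have hle2 : degPart (Ideal.span {a, b, c}) 6 ⊔ Submodule.span K {g0} ≤ Hd K 6 :=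
      sup_le hle ((Submodule.span_singleton_le_iff_mem _ _).mpr hg0)
    have := fin_of_le hle2
    have hlt : degPart (Ideal.span {a, b, c}) 6 < degPart (Ideal.span {a, b, c}) 6 ⊔ Submodule.span K {g0} :=
      lt_of_le_of_ne le_sup_left (fun he => hg0F (by
        rw [he]
        exact Submodule.mem_sup_right (Submodule.mem_span_singleton_self _)))
    have h3 := Submodule.finrank_lt_finrank_of_lt hlt
    exact Submodule.eq_of_le_of_finrank_le hle2 (by omega)
  rw [← hsup, Submodule.mem_sup] at hg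
  obtain ⟨w, hw, z, hz, rfl⟩ := hg
  obtain ⟨t, rfl⟩ := Submodule.mem_span_singleton.mp hz
  rw [map_add, map_smul, hl2 hw, zero_add, smul_eq_mul] at hlg
  have ht : t = 0 := by
    rcases mul_eq_zero.mp hlg with h5 | h5
    · exact h5
    · exact absurd h5 hl1
  rw [ht, zero_smul, add_zero]
  exact hw

variable {l : MvPolynomial (Fin 3) K →ₗ[K] K}

/-- The pairing has left kernel the ideal. -/
theorem left_kernel (h : RegSeq a b c) (ha : a ∈ Hd K 3) (hb : b ∈ Hd K 3) (hc : c ∈ Hd K 3)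
    (hl : ∀ g ∈ Hd K 6, l g = 0 ↔ g ∈ degPart (Ideal.span {a, b, c}) 6) :
    ∀ k d : ℕ, d + k = 6 → ∀ u ∈ Hd K d, (∀ v ∈ Hd K k, l (u * v) = 0) →
      u ∈ Ideal.span {a, b, c} := by
  intro k
  induction k with
  | zero =>
    intro d hd u hu hv
    simp only [add_zero] at hd
    subst hd
    have h1 := hv 1 (isHomogeneous_one _ _)
    rw [mul_one] at h1
    exact (mem_degPart.mp ((hl u hu).mp h1)).1
  | succ k ih =>
    intro d hd u hu hv
    refine socle_free h ha hb hc hu (by omega) fun i => ?_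
    refine ih (1 + d) (by omega) _ (Hd_mul_mem (X_mem_Hd i) hu) fun v hv' => ?_
    have h1 := hv (X i * v) (by
      have := Hd_mul_mem (X_mem_Hd (K := K) i) hv'
      rwa [add_comm] at this)
    rw [show X i * u * v = u * (X i * v) by ring]
    exact h1

/-- The subspace of degree `e` forms orthogonal to `V`. -/
noncomputable def perp (l : MvPolynomial (Fin 3) K →ₗ[K] K) (V : Submodule K (MvPolynomial (Fin 3) K)) (e : ℕ) :
    Submodule K (MvPolynomial (Fin 3) K) where
  carrier := {v | v ∈ Hd K e ∧ ∀ u ∈ V, l (u * v) = 0}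
  add_mem' := by
    rintro x y ⟨hx1, hx2⟩ ⟨hy1, hy2⟩
    refine ⟨Submodule.add_mem _ hx1 hy1, fun u hu => ?_⟩
    rw [mul_add, map_add, hx2 u hu, hy2 u hu, add_zero]
  zero_mem' := ⟨Submodule.zero_mem _, fun u _ => by simp⟩
  smul_mem' := by
    rintro t x ⟨hx1, hx2⟩
    refine ⟨Submodule.smul_mem _ t hx1, fun u hu => ?_⟩
    rw [mul_smul_comm, map_smul, hx2 u hu, smul_zero]

lemma mem_perp {V : Submodule K (MvPolynomial (Fin 3) K)} {e : ℕ} {v : MvPolynomial (Fin 3) K} :
    v ∈ perp l V e ↔ v ∈ Hd K e ∧ ∀ u ∈ V, l (u * v) = 0 := Iff.rfl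

/-- The dimension of the orthogonal complement. -/
theorem finrank_perp (h : RegSeq a b c) (ha : a ∈ Hd K 3) (hb : b ∈ Hd K 3) (hc : c ∈ Hd K 3)
    (hl : ∀ g ∈ Hd K 6, l g = 0 ↔ g ∈ degPart (Ideal.span {a, b, c}) 6)
    {d e : ℕ} (hde : d + e = 6) {V : Submodule K (MvPolynomial (Fin 3) K)} (hV : V ≤ Hd K d)
    (hFV : degPart (Ideal.span {a, b, c}) d ≤ V) :
    finrank K (perp l V e) + finrank K V
      = finrank K (Hd K e) + finrank K (degPart (Ideal.span {a, b, c}) d) := by
  have := fin_of_le hV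
  -- the map into the dual
  let B : MvPolynomial (Fin 3) K →ₗ[K] Dual K (MvPolynomial (Fin 3) K) :=
    (LinearMap.mul K (MvPolynomial (Fin 3) K)).compr₂ l
  let ι : V →ₗ[K] Dual K (Hd K e) := ((Hd K e).subtype.dualMap).comp (B.comp V.subtype)
  have hι : ∀ (u : V) (y : Hd K e), ι u y = l (u.1 * y.1) := fun _ _ => rfl
  have h1 := LinearMap.finrank_range_add_finrank_ker ι
  -- the kernel
  have hker : finrank K (LinearMap.ker ι) = finrank K (degPart (Ideal.span {a, b, c}) d) := by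
    have hk : LinearMap.ker ι = Submodule.comap V.subtype (degPart (Ideal.span {a, b, c}) d) := by
      ext u
      rw [LinearMap.mem_ker, Submodule.mem_comap, Submodule.subtype_apply, mem_degPart]
      constructor
      · intro hu
        refine ⟨left_kernel h ha hb hc hl e d hde u.1 (hV u.2) fun v hv => ?_, hV u.2⟩
        have := LinearMap.congr_fun hu ⟨v, hv⟩
        rwa [hι] at this
      · rintro ⟨hu1, hu2⟩
        ext y
        rw [hι]
        simp only [LinearMap.zero_apply]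
        refine (hl _ ?_).mpr (mem_degPart.mpr ⟨Ideal.mul_mem_right _ _ hu1, ?_⟩)
        · have := Hd_mul_mem hu2 y.2
          rwa [hde] at this
        · have := Hd_mul_mem hu2 y.2
          rwa [hde] at this
    rw [hk]
    exact (Submodule.comapSubtypeEquivOfLe hFV).finrank_eq
  -- the coannihilator
  have h2 := Subspace.finrank_add_finrank_dualCoannihilator_eq (LinearMap.range ι)
  have hco : perp l V e = (LinearMap.range ι).dualCoannihilator.map (Hd K e).subtype := by
    ext v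
    rw [mem_perp, Submodule.mem_map]
    constructor
    · rintro ⟨hv1, hv2⟩
      refine ⟨⟨v, hv1⟩, ?_, rfl⟩
      rw [Submodule.mem_dualCoannihilator]
      rintro φ ⟨u, rfl⟩
      rw [hι]
      exact hv2 u.1 u.2
    · rintro ⟨y, hy, rfl⟩
      refine ⟨y.2, fun u hu => ?_⟩
      rw [Submodule.mem_dualCoannihilator] at hy
      have := hy (ι ⟨u, hu⟩) ⟨_, rfl⟩
      rwa [hι] at this
  have h3 : finrank K (perp l V e) = finrank K (LinearMap.range ι).dualCoannihilator := by
    rw [hco]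
    exact Submodule.finrank_map_subtype_eq _ _
  rw [hker] at h1
  omega

/-- The growth statement in degree `d`. -/
def GrowthAt (a b c : MvPolynomial (Fin 3) K) (d : ℕ) : Prop :=
  ∀ V : Submodule K (MvPolynomial (Fin 3) K), V ≤ Hd K d → degPart (Ideal.span {a, b, c}) d ≤ V →
    ff (d + 1) + GG d (finrank K V - ff d)
      ≤ finrank K ↥(Hd K 1 * V ⊔ degPart (Ideal.span {a, b, c}) (d + 1))

lemma mul_le_Hd {V : Submodule K (MvPolynomial (Fin 3) K)} {d : ℕ} (hV : V ≤ Hd K d) :
    Hd K 1 * V ≤ Hd K (d + 1) := by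
  rw [Submodule.mul_le]
  intro x hx v hv
  rw [add_comm]
  exact Hd_mul_mem hx (hV hv)

lemma degPart_mul {A : Ideal (MvPolynomial (Fin 3) K)} {x y : MvPolynomial (Fin 3) K} {d e n : ℕ}
    (hn : d + e = n) (hx : x ∈ degPart A d) (hy : y ∈ Hd K e) : x * y ∈ degPart A n := by
  obtain ⟨h1, h2⟩ := mem_degPart.mp hx
  refine mem_degPart.mpr ⟨Ideal.mul_mem_right _ _ h1, ?_⟩
  rw [← hn]
  exact Hd_mul_mem h2 hy

/-- The duality step. -/
theorem growth_dual {a b c : MvPolynomial (Fin 3) K} (h : RegSeq a b c) (ha : a ∈ Hd K 3)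
    (hb : b ∈ Hd K 3) (hc : c ∈ Hd K 3) {d : ℕ} (hd3 : 3 ≤ d) (hd5 : d ≤ 5)
    (hg : GrowthAt a b c (5 - d)) : GrowthAt a b c d := by
  intro V hV hFV
  obtain ⟨l, hl⟩ := exists_lam h ha hb hc
  set F := degPart (Ideal.span {a, b, c}) with hF
  let U := Hd K 1 * V ⊔ F (d + 1)
  have hU : U ≤ Hd K (d + 1) := sup_le (mul_le_Hd hV) inf_le_right
  let T := perp l U (5 - d)
  have hT : T ≤ Hd K (5 - d) := fun _ hx => hx.1
  have hFT : F (5 - d) ≤ T := by
    intro w hw
    refine ⟨(mem_degPart.mp hw).2, fun u hu => ?_⟩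
    refine (hl _ ?_).mpr ?_
    · have := Hd_mul_mem (hU hu) (mem_degPart.mp hw).2
      rwa [show d + 1 + (5 - d) = 6 by omega] at this
    · rw [mul_comm]
      exact degPart_mul (by omega) hw (hU hu)
  have h1 := finrank_perp h ha hb hc hl (by omega : d + 1 + (5 - d) = 6) hU le_sup_right
  have h2 := hg T hT hFT
  have hT' : Hd K 1 * T ⊔ F (5 - d + 1) ≤ perp l V (6 - d) := by
    refine sup_le ?_ ?_
    · rw [Submodule.mul_le]
      intro x hx t ht
      refine ⟨?_, fun u hu => ?_⟩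
      · have := Hd_mul_mem hx ht.1
        rwa [show 1 + (5 - d) = 6 - d by omega] at this
      · have h3 := ht.2 (x * u) (Submodule.mem_sup_left (Submodule.mul_mem_mul hx hu))
        rwa [show x * u * t = u * (x * t) by ring] at h3
    · intro w hw
      refine ⟨?_, fun u hu => ?_⟩
      · have := (mem_degPart.mp hw).2
        rwa [show 5 - d + 1 = 6 - d by omega] at this
      · refine (hl _ ?_).mpr ?_
        · have := Hd_mul_mem (hV hu) (mem_degPart.mp hw).2
          rwa [show d + (5 - d + 1) = 6 by omega] at this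
        · rw [mul_comm]
          exact degPart_mul (by omega) hw (hV hu)
  have hperpV : perp l V (6 - d) ≤ Hd K (6 - d) := fun _ hx => hx.1
  have h3 := finrank_mono_Hd hT' hperpV
  have h4 := finrank_perp h ha hb hc hl (by omega : d + (6 - d) = 6) hV hFV
  have hFd := finrank_F h ha hb hc (by omega : d ≤ 7)
  have hFd1 := finrank_F h ha hb hc (by omega : d + 1 ≤ 7)
  have hFe := finrank_F h ha hb hc (by omega : 5 - d ≤ 7)
  have hFe1 := finrank_F h ha hb hc (by omega : 6 - d ≤ 7)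
  have hv1 := finrank_mono_Hd hFV hV
  have hv2 := finrank_mono_Hd hV (le_refl _)
  have ht1 := finrank_mono_Hd hFT hT
  have ht2 := finrank_mono_Hd hT (le_refl _)
  have hs1 := finrank_Hd (K := K) d
  have hs2 := finrank_Hd (K := K) (5 - d)
  have hs3 := finrank_Hd (K := K) (6 - d)
  rw [hFd] at h4 hv1
  rw [hFd1] at h1
  rw [hFe] at ht1
  rw [show 5 - d + 1 = 6 - d by omega] at h2 h3
  have htab : ∀ v t, v ≤ (d + 2).choose 2 - ff d → t ≤ (5 - d + 2).choose 2 - ff (5 - d) →
      GG (5 - d) t + v ≤ hh d → GG d v + t ≤ hh (5 - d) := by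
    intro v t hv ht
    refine table_dual d (Finset.mem_Icc.mpr ⟨hd3, hd5⟩) v (Finset.mem_range.mpr ?_) t
      (Finset.mem_range.mpr ?_)
    · interval_cases d <;> revert hv <;> decide +revert
    · interval_cases d <;> revert ht <;> decide +revert
  have h23 : ff (6 - d) + GG (5 - d) (finrank K T - ff (5 - d)) ≤ finrank K (perp l V (6 - d)) :=
    le_trans h2 h3
  have h1' : finrank K T + finrank K U = finrank K (Hd K (5 - d)) + ff (d + 1) := h1
  have ht1' : ff (5 - d) ≤ finrank K T := ht1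
  change ff (d + 1) + GG d (finrank K V - ff d) ≤ finrank K U
  rw [hs1] at hv2
  rw [hs2] at h1' ht2
  rw [hs3] at h4
  generalize finrank K U = nU at *
  generalize finrank K T = nT at *
  generalize finrank K V = nV at *
  generalize finrank K (perp l V (6 - d)) = nP at *
  clear hFd hFd1 hFe hFe1 hs1 hs2 hs3 h1 h2 h3 hT' hFT hT hU hFV hV ht1
  have c0 : Nat.choose 2 2 = 1 := rfl
  have c1 : Nat.choose 3 2 = 3 := rfl
  have c2 : Nat.choose 4 2 = 6 := rfl
  have c3 : Nat.choose 5 2 = 10 := rfl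
  have c4 : Nat.choose 6 2 = 15 := rfl
  have c5 : Nat.choose 7 2 = 21 := rfl
  interval_cases d
  · simp only [ff, hh, Nat.reduceSub, Nat.reduceAdd, Nat.sub_zero] at *
    have h5 := htab (nV - 3) nT (by omega) (by omega) (by omega)
    omega
  · simp only [ff, hh, Nat.reduceSub, Nat.reduceAdd, Nat.sub_zero] at *
    have h5 := htab (nV - 9) nT (by omega) (by omega) (by omega)
    omega
  · simp only [ff, hh, Nat.reduceSub, Nat.reduceAdd, Nat.sub_zero] at *
    have h5 := htab (nV - 18) nT (by omega) (by omega) (by omega)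
    omega

end

end Vale.Agent.Lib.P200
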