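import Vale.Agent.Lib.P200.Count

namespace Vale.Agent.Lib.P200

open MvPolynomial Module

variable {K : Type*} [Field K]

/-- Evaluation at a commuting family of endomorphisms. -/
lemma exists_ev {A : Type*} [AddCommGroup A] [Module K A] (T : Fin 3 → Module.End K A)
    (hc : ∀ i j, T i * T j = T j * T i) :
    ∃ E : MvPolynomial (Fin 3) K →ₐ[K] Module.End K A, ∀ i, E (X i) = T i := by
  have hcomm : ∀ a ∈ Set.range T, ∀ b ∈ Set.range T, a * b = b * a := by
    rintro _ ⟨i, rfl⟩ _ ⟨j, rfl⟩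
    exact hc i j
  letI : CommRing (Algebra.adjoin K (Set.range T)) := Algebra.adjoinCommRingOfComm K hcomm
  let ev : MvPolynomial (Fin 3) K →ₐ[K] Algebra.adjoin K (Set.range T) :=
    aeval (fun i => ⟨T i, Algebra.subset_adjoin ⟨i, rfl⟩⟩)
  refine ⟨(Algebra.adjoin K (Set.range T)).val.comp ev, fun i => ?_⟩
  simp [ev]

/-- The abstract persistence statement. -/
theorem persist_core {A : Type*} [AddCommGroup A] [Module K A] [Nontrivial A]
    {V : Submodule K (MvPolynomial (Fin 3) K)} {l : MvPolynomial (Fin 3) K}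
    (ρ : MvPolynomial (Fin 3) K →ₗ[K] A) (σ : A →ₗ[K] MvPolynomial (Fin 3) K)
    (θ : MvPolynomial (Fin 3) K →ₗ[K] A) (hV : V ≤ Hd K 2) (hl : l ∈ Hd K 1)
    (hσ1 : ∀ y, σ y ∈ Hd K 2) (hσ2 : ∀ y, ρ (σ y) = y)
    (hρ1 : ∀ g ∈ Hd K 2, ρ g = 0 → g ∈ V) (hρ2 : ∀ g ∈ V, ρ g = 0)
    (hθ1 : ∀ g ∈ Hd K 2, θ (l * g) = ρ g)
    (hθ2 : ∀ m ∈ Hd K 1, ∀ g ∈ V, θ (m * g) = 0)
    (hsurj : V ⊔ gmul l (Hd K 1) = Hd K 2) (k : ℕ) :
    l ^ k ∉ Ideal.span (V : Set (MvPolynomial (Fin 3) K)) := by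
  -- the operators
  let R : MvPolynomial (Fin 3) K → Module.End K A := fun m => θ ∘ₗ (LinearMap.mulLeft K m) ∘ₗ σ
  have hRapp : ∀ m y, R m y = θ (m * σ y) := fun _ _ => rfl
  have hRrho : ∀ m ∈ Hd K 1, ∀ g ∈ Hd K 2, R m (ρ g) = θ (m * g) := by
    intro m hm g hg
    rw [hRapp]
    have h1 : g - σ (ρ g) ∈ V := by
      refine hρ1 _ (Submodule.sub_mem _ hg (hσ1 _)) ?_
      rw [map_sub, hσ2, sub_self]
    have h2 := hθ2 m hm _ h1
    rw [mul_sub, map_sub, sub_eq_zero] at h2
    exact h2.symm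
  have hRl : ∀ y, R l y = y := by
    intro y
    rw [hRapp, hθ1 _ (hσ1 y), hσ2]
  have hrep : ∀ y, ∃ n ∈ Hd K 1, y = ρ (l * n) := by
    intro y
    have h1 : σ y ∈ V ⊔ gmul l (Hd K 1) := by
      rw [hsurj]
      exact hσ1 y
    obtain ⟨v, hv, w, hw, hvw⟩ := Submodule.mem_sup.mp h1
    obtain ⟨n, hn, rfl⟩ := mem_gmul.mp hw
    refine ⟨n, hn, ?_⟩
    have h2 := hσ2 y
    rw [← hvw, map_add, hρ2 v hv, zero_add] at h2
    exact h2.symm
  have hRln : ∀ m ∈ Hd K 1, ∀ n ∈ Hd K 1, R m (ρ (l * n)) = ρ (m * n) := by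
    intro m hm n hn
    rw [hRrho m hm _ (Hd_mul_mem hl hn)]
    rw [show m * (l * n) = l * (m * n) by ring]
    exact hθ1 _ (Hd_mul_mem hm hn)
  have hcomm : ∀ i j : Fin 3, R (X i) * R (X j) = R (X j) * R (X i) := by
    intro i j
    ext y
    obtain ⟨n, hn, rfl⟩ := hrep y
    simp only [Module.End.mul_apply]
    rw [hRln _ (X_mem_Hd j) _ hn, hRln _ (X_mem_Hd i) _ hn,
      hRrho _ (X_mem_Hd i) _ (Hd_mul_mem (X_mem_Hd j) hn),
      hRrho _ (X_mem_Hd j) _ (Hd_mul_mem (X_mem_Hd i) hn)]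
    rw [show (X i : MvPolynomial (Fin 3) K) * (X j * n) = X j * (X i * n) by ring]
  obtain ⟨E, hE⟩ := exists_ev (fun i => R (X i)) hcomm
  -- the operators of linear forms
  have hElin0 : ∀ m ∈ Submodule.span K (Set.range (X : Fin 3 → MvPolynomial (Fin 3) K)),
      E m = R m := by
    intro m hm'
    induction hm' using Submodule.span_induction with
    | mem y hy =>
      obtain ⟨i, rfl⟩ := hy
      exact hE i
    | zero =>
      rw [map_zero]
      ext y
      simp [hRapp]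
    | add a b _ _ iha ihb =>
      rw [map_add, iha, ihb]
      ext y
      simp [hRapp, add_mul]
    | smul c a _ iha =>
      rw [map_smul, iha]
      ext y
      simp [hRapp]
  have hElin : ∀ m ∈ Hd K 1, E m = R m := by
    intro m hm
    apply hElin0
    rw [← homogeneousSubmodule_one_eq_span_X]
    exact hm
  -- the value on the distinguished element
  have hquad : ∀ g ∈ Hd K 2, E g (ρ (l * l)) = ρ g := by
    intro g hg
    have h2 : g ∈ Hd K 1 * Hd K 1 := by
      rw [Hd_one_mul 1]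
      exact hg
    induction h2 using Submodule.mul_induction_on' with
    | mem_mul_mem m hm n hn =>
      rw [map_mul, Module.End.mul_apply, hElin n hn, hElin m hm, hRln n hn l hl, mul_comm n l,
        hRln m hm n hn]
    | add a _ b _ iha ihb =>
      have ha' : a ∈ Hd K 2 := by
        rw [← Hd_one_mul 1]
        assumption
      have hb' : b ∈ Hd K 2 := by
        rw [← Hd_one_mul 1]
        assumption
      rw [map_add, LinearMap.add_apply, iha ha', ihb hb', map_add]
  -- the forms in `V` act as zero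
  have hVzero : ∀ g ∈ V, E g = 0 := by
    intro g hg
    ext y
    have h1 : y = E (σ y) (ρ (l * l)) := by
      rw [hquad _ (hσ1 y), hσ2]
    have h2 : E g (ρ (l * l)) = 0 := by
      rw [hquad g (hV hg)]
      exact hρ2 g hg
    have h3 : E g * E (σ y) = E (σ y) * E g := by
      rw [← map_mul, ← map_mul, mul_comm]
    rw [h1]
    have h4 := congrArg (fun F : Module.End K A => F (ρ (l * l))) h3
    simp only [Module.End.mul_apply] at h4
    rw [h4, h2, map_zero]
    simp
  -- conclusion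
  intro hmem
  have hker : Ideal.span (V : Set (MvPolynomial (Fin 3) K)) ≤ RingHom.ker E.toRingHom := by
    rw [Ideal.span_le]
    intro g hg
    exact hVzero g hg
  have h5 : E (l ^ k) = 0 := hker hmem
  have h6 : E l = 1 := by
    rw [hElin l hl]
    ext y
    exact hRl y
  rw [map_pow, h6, one_pow] at h5
  obtain ⟨y, hy⟩ := exists_ne (0 : A)
  have h7 := congrArg (fun F : Module.End K A => F y) h5
  simp at h7
  exact hy h7

/-- The quotient `Hd d / V`. -/
abbrev Qt (K : Type*) [Field K] (d : ℕ) (V : Submodule K (MvPolynomial (Fin 3) K)) : Type _ :=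
  ↥(Hd K d) ⧸ (V.comap (Hd K d).subtype)

/-- The projection onto the quotient `Hd d / V`, through the homogeneous component. -/
noncomputable def rho (d : ℕ) (V : Submodule K (MvPolynomial (Fin 3) K)) :
    MvPolynomial (Fin 3) K →ₗ[K] Qt K d V :=
  (Submodule.mkQ _) ∘ₗ
    (LinearMap.codRestrict (Hd K d) (homogeneousComponent d)
      (fun g => homogeneousComponent_isHomogeneous d g))

lemma rho_of_mem {d : ℕ} {V : Submodule K (MvPolynomial (Fin 3) K)}
    {g : MvPolynomial (Fin 3) K} (hg : g ∈ Hd K d) :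
    rho d V g = Submodule.Quotient.mk ⟨g, hg⟩ := by
  have h1 : homogeneousComponent d g = g := by
    have := homogeneousComponent_of_mem (m := d) (n := d) hg
    simpa using this
  simp only [rho, LinearMap.comp_apply, Submodule.mkQ_apply]
  congr 1
  exact Subtype.ext h1

lemma rho_eq_zero_iff {d : ℕ} {V : Submodule K (MvPolynomial (Fin 3) K)}
    {g : MvPolynomial (Fin 3) K} (hg : g ∈ Hd K d) : rho d V g = 0 ↔ g ∈ V := by
  rw [rho_of_mem hg, Submodule.Quotient.mk_eq_zero]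
  simp

lemma rho_surj {d : ℕ} {V : Submodule K (MvPolynomial (Fin 3) K)} (y : Qt K d V) :
    ∃ g ∈ Hd K d, rho d V g = y := by
  obtain ⟨g, rfl⟩ := Submodule.Quotient.mk_surjective _ y
  exact ⟨g.1, g.2, rho_of_mem g.2⟩

lemma finrank_Qt {d : ℕ} {V : Submodule K (MvPolynomial (Fin 3) K)} (hV : V ≤ Hd K d) :
    finrank K (Qt K d V) + finrank K V = finrank K (Hd K d) := by
  have h1 := Submodule.finrank_quotient_add_finrank (V.comap (Hd K d).subtype)
  rw [(Submodule.comapSubtypeEquivOfLe hV).finrank_eq] at h1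
  exact h1

lemma exists_sigma (d : ℕ) (V : Submodule K (MvPolynomial (Fin 3) K)) :
    ∃ σ : Qt K d V →ₗ[K] MvPolynomial (Fin 3) K, (∀ y, σ y ∈ Hd K d) ∧ ∀ y, rho d V (σ y) = y := by
  obtain ⟨s, hs⟩ := LinearMap.exists_rightInverse_of_surjective
    (Submodule.mkQ (V.comap (Hd K d).subtype)) (Submodule.range_mkQ _)
  refine ⟨(Hd K d).subtype ∘ₗ s, fun y => (s y).2, fun y => ?_⟩
  rw [LinearMap.comp_apply, Submodule.subtype_apply, rho_of_mem (s y).2]
  exact LinearMap.congr_fun hs y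

lemma sub_sigma_mem {d : ℕ} {V : Submodule K (MvPolynomial (Fin 3) K)}
    {σ : Qt K d V →ₗ[K] MvPolynomial (Fin 3) K} (h1 : ∀ y, σ y ∈ Hd K d)
    (h2 : ∀ y, rho d V (σ y) = y) {g : MvPolynomial (Fin 3) K} (hg : g ∈ Hd K d) :
    g - σ (rho d V g) ∈ V := by
  refine (rho_eq_zero_iff (Submodule.sub_mem _ hg (h1 _))).mp ?_
  rw [map_sub, h2, sub_self]

/-- Persistence, from the injectivity of multiplication by a linear form. -/
theorem persist_of_inj {V U : Submodule K (MvPolynomial (Fin 3) K)} {l : MvPolynomial (Fin 3) K}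
    (hV : V ≤ Hd K 2) (hU : U ≤ Hd K 3) (hl : l ∈ Hd K 1) (hVU : Hd K 1 * V ≤ U)
    (hinj : ∀ g ∈ Hd K 2, l * g ∈ U → g ∈ V) (hrank : finrank K U + 6 = finrank K V + 10)
    (hnon : finrank K V < 6) (hsurj : V ⊔ gmul l (Hd K 1) = Hd K 2) (k : ℕ) :
    l ^ k ∉ Ideal.span (V : Set (MvPolynomial (Fin 3) K)) := by
  obtain ⟨σ, hσ1, hσ2⟩ := exists_sigma (K := K) 2 V
  have hA := finrank_Qt hV
  have hB := finrank_Qt hU
  rw [finrank_Hd] at hA hB
  have hA' : finrank K (Qt K 2 V) + finrank K V = 6 := hA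
  have hB' : finrank K (Qt K 3 U) + finrank K U = 10 := hB
  have hAB : finrank K (Qt K 2 V) = finrank K (Qt K 3 U) := by omega
  haveI : Nontrivial (Qt K 2 V) := by
    have : 0 < finrank K (Qt K 2 V) := by omega
    exact Module.nontrivial_of_finrank_pos this
  let T : Qt K 2 V →ₗ[K] Qt K 3 U := rho 3 U ∘ₗ LinearMap.mulLeft K l ∘ₗ σ
  have hTapp : ∀ y, T y = rho 3 U (l * σ y) := fun _ => rfl
  have hTinj : Function.Injective T := by
    rw [← LinearMap.ker_eq_bot, LinearMap.ker_eq_bot']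
    intro y hy
    rw [hTapp, rho_eq_zero_iff (Hd_mul_mem hl (hσ1 y))] at hy
    have h1 := hinj _ (hσ1 y) hy
    rw [← hσ2 y]
    exact (rho_eq_zero_iff (hσ1 y)).mpr h1
  have hTsurj : Function.Surjective T :=
    (LinearMap.injective_iff_surjective_of_finrank_eq_finrank hAB).mp hTinj
  let e : Qt K 2 V ≃ₗ[K] Qt K 3 U := LinearEquiv.ofBijective T ⟨hTinj, hTsurj⟩
  have he : ∀ y, e y = T y := fun _ => rfl
  let θ : MvPolynomial (Fin 3) K →ₗ[K] Qt K 2 V := e.symm.toLinearMap ∘ₗ rho 3 U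
  refine persist_core (rho 2 V) σ θ hV hl hσ1 hσ2 (fun g hg h0 => (rho_eq_zero_iff hg).mp h0)
    (fun g hg => (rho_eq_zero_iff (hV hg)).mpr hg) ?_ ?_ hsurj k
  · intro g hg
    show e.symm (rho 3 U (l * g)) = rho 2 V g
    rw [LinearEquiv.symm_apply_eq, he, hTapp, ← sub_eq_zero, ← map_sub, ← mul_sub,
      rho_eq_zero_iff (Hd_mul_mem hl (Submodule.sub_mem _ hg (hσ1 _)))]
    exact hVU (Submodule.mul_mem_mul hl (sub_sigma_mem hσ1 hσ2 hg))
  · intro m hm g hg
    show e.symm (rho 3 U (m * g)) = 0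
    have h1 : m * g ∈ U := hVU (Submodule.mul_mem_mul hm hg)
    rw [(rho_eq_zero_iff (hU h1)).mpr h1, map_zero]

/-- Surjectivity from the injectivity of multiplication by a linear form. -/
lemma hsurj_of_inj {V U : Submodule K (MvPolynomial (Fin 3) K)} {l : MvPolynomial (Fin 3) K}
    (hV : V ≤ Hd K 2) (hl : l ∈ Hd K 1) (hl0 : l ≠ 0) (hVU : Hd K 1 * V ≤ U)
    (hinj : ∀ g ∈ Hd K 2, l * g ∈ U → g ∈ V) (hdim : finrank K V = 4 ∨ finrank K V = 5) :
    V ⊔ gmul l (Hd K 1) = Hd K 2 := by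
  have hlm : gmul l (Hd K 1) ≤ Hd K 2 := gmul_le_Hd hl (le_refl _)
  have hsup : V ⊔ gmul l (Hd K 1) ≤ Hd K 2 := sup_le hV hlm
  let L : Submodule K (MvPolynomial (Fin 3) K) := V.comap (LinearMap.mulLeft K l) ⊓ Hd K 1
  have hL1 : L ≤ Hd K 1 := inf_le_right
  have hL2 : gmul l L = V ⊓ gmul l (Hd K 1) := by
    ext x
    constructor
    · intro hx
      obtain ⟨u, hu, rfl⟩ := mem_gmul.mp hx
      exact ⟨hu.1, mul_mem_gmul hu.2⟩
    · rintro ⟨hx1, hx2⟩
      obtain ⟨u, hu, rfl⟩ := mem_gmul.mp hx2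
      exact mul_mem_gmul ⟨hx1, hu⟩
  have hL3 : Hd K 1 * L ≤ V := by
    refine Submodule.mul_le.mpr fun m hm n hn => ?_
    refine hinj _ (Hd_mul_mem hm (hL1 hn)) ?_
    rw [show l * (m * n) = m * (l * n) by ring]
    exact hVU (Submodule.mul_mem_mul hm hn.1)
  have := fin_of_le hV
  have := fin_of_le hlm
  have hmac := macaulay (d := 1) (by omega) hL1
  have hle := finrank_mono_Hd hL3 hV
  have hL4 : finrank K L ≤ 3 := by
    have := finrank_mono_Hd hL1 (le_refl _)
    rwa [finrank_Hd] at this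
  have hsum := Submodule.finrank_sup_add_finrank_inf_eq V (gmul l (Hd K 1))
  rw [← hL2, finrank_gmul hl0, finrank_gmul hl0, finrank_Hd] at hsum
  have h3 : (1 + 2).choose 2 = 3 := rfl
  rw [h3] at hsum
  have hfinal : 6 ≤ finrank K ↥(V ⊔ gmul l (Hd K 1)) := by
    generalize finrank K L = q at *
    interval_cases q <;> simp only [mac] at hmac <;> omega
  refine Submodule.eq_of_le_of_finrank_le hsup ?_
  rw [finrank_Hd]
  exact hfinal

/-- Multiplication by all the linear forms, from the variables. -/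
lemma lin_mul_mem {U : Submodule K (MvPolynomial (Fin 3) K)} {g : MvPolynomial (Fin 3) K}
    (hg : ∀ i, X i * g ∈ U) : ∀ m ∈ Hd K 1, m * g ∈ U := by
  intro m hm
  have hm' : m ∈ Submodule.span K (Set.range (X : Fin 3 → MvPolynomial (Fin 3) K)) := by
    rw [← homogeneousSubmodule_one_eq_span_X]
    exact hm
  clear hm
  induction hm' using Submodule.span_induction with
  | mem y hy =>
    obtain ⟨i, rfl⟩ := hy
    exact hg i
  | zero => simp
  | add a b _ _ iha ihb =>
    rw [add_mul]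
    exact U.add_mem iha ihb
  | smul c a _ iha =>
    rw [smul_mul_assoc]
    exact U.smul_mem c iha

/-- A form outside `V` killed into `U` by all the variables yields a Macaulay bound. -/
lemma no_common {V U : Submodule K (MvPolynomial (Fin 3) K)} {g : MvPolynomial (Fin 3) K}
    (hV : V ≤ Hd K 2) (hU : U ≤ Hd K 3) (hVU : Hd K 1 * V ≤ U) (hg : g ∈ Hd K 2) (hgV : g ∉ V)
    (hX : ∀ i, X i * g ∈ U) : mac 2 (finrank K V + 1) ≤ finrank K U := by
  have := fin_of_le hV
  let W : Submodule K (MvPolynomial (Fin 3) K) := V ⊔ Submodule.span K {g}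
  have hW : W ≤ Hd K 2 := sup_le hV (by rw [Submodule.span_singleton_le_iff_mem]; exact hg)
  have hdim : finrank K W = finrank K V + 1 := by
    have h1 : V ⊓ Submodule.span K {g} = ⊥ := by
      rw [Submodule.eq_bot_iff]
      rintro x ⟨hx1, hx2⟩
      obtain ⟨c, rfl⟩ := Submodule.mem_span_singleton.mp hx2
      by_cases hc : c = 0
      · simp [hc]
      · exact absurd ((Submodule.smul_mem_iff _ hc).mp hx1) hgV
    have h2 := Submodule.finrank_sup_add_finrank_inf_eq V (Submodule.span K {g})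
    rw [h1, finrank_bot, add_zero, finrank_span_singleton (by rintro rfl; exact hgV V.zero_mem)] at h2
    exact h2
  have h3 := macaulay (d := 2) (by omega) hW
  rw [hdim] at h3
  refine h3.trans ?_
  refine finrank_mono_Hd ?_ hU
  refine Submodule.mul_le.mpr fun m hm w hw => ?_
  obtain ⟨v, hv, z, hz, rfl⟩ := Submodule.mem_sup.mp hw
  obtain ⟨c, rfl⟩ := Submodule.mem_span_singleton.mp hz
  rw [mul_add, mul_smul_comm]
  exact U.add_mem (hVU (Submodule.mul_mem_mul hm hv)) (U.smul_mem c (lin_mul_mem hX m hm))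

/-- The pencil lemma: singular maps between planes with all sums singular have a common kernel
vector, when their joint image is everything. -/
theorem pencil {A B : Type*} [AddCommGroup A] [Module K A] [AddCommGroup B] [Module K B]
    (hA : finrank K A = 2) (hB : finrank K B = 2) (T : Fin 3 → (A →ₗ[K] B))
    (h1 : ∀ i, ∃ y, y ≠ 0 ∧ T i y = 0)
    (h2 : ∀ i j, i ≠ j → ∃ y, y ≠ 0 ∧ (T i + T j) y = 0)
    (h3 : ∀ φ : B →ₗ[K] K, (∀ i y, φ (T i y) = 0) → φ = 0) :
    ∃ y, y ≠ 0 ∧ ∀ i, T i y = 0 := by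
  classical
  by_contra hno
  push Not at hno
  haveI : Nontrivial A := Module.nontrivial_of_finrank_pos (R := K) (by omega)
  haveI : Module.Finite K A := Module.finite_of_finrank_pos (by omega)
  haveI : Module.Finite K B := Module.finite_of_finrank_pos (by omega)
  obtain ⟨y0, hy0⟩ := exists_ne (0 : A)
  obtain ⟨a, ha⟩ := hno y0 hy0
  obtain ⟨c, hc0, hcT⟩ := h1 a
  obtain ⟨n, hn⟩ := hno c hc0
  obtain ⟨c', hc'0, hc'T⟩ := h1 n
  have hna : n ≠ a := by
    rintro rfl
    exact hn hcT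
  -- the pair is a basis
  have hli : LinearIndependent K ![c, c'] := by
    rw [LinearIndependent.pair_iff]
    intro s t hst
    have h4 := congrArg (T n) hst
    rw [map_add, map_smul, map_smul, hc'T, smul_zero, add_zero, map_zero] at h4
    have hs : s = 0 := by
      by_contra hs
      exact hn ((smul_eq_zero.mp h4).resolve_left hs)
    subst hs
    rw [zero_smul, zero_add] at hst
    exact ⟨rfl, (smul_eq_zero.mp hst).resolve_right hc'0⟩
  have hspan : ∀ y : A, ∃ α β : K, α • c + β • c' = y := by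
    intro y
    have h4 := hli.span_eq_top_of_card_eq_finrank (by simp [hA])
    have h5 : y ∈ Submodule.span K (Set.range ![c, c']) := by
      rw [h4]
      trivial
    rw [Matrix.range_cons, Matrix.range_cons, Matrix.range_empty, Set.union_empty,
      Set.singleton_union, Submodule.mem_span_pair] at h5
    exact h5
  -- the image vector
  set d := T a c' with hd
  have hd0 : d ≠ 0 := by
    intro h0
    obtain ⟨α, β, hab⟩ := hspan y0
    apply ha
    rw [← hab, map_add, map_smul, map_smul, hcT, ← hd, h0]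
    simp
  obtain ⟨d2, hd2⟩ := exists_linearIndependent_pair_of_one_lt_finrank (R := K) (M := B)
    (by omega) hd0
  let b : Basis (Fin 2) K B := basisOfLinearIndependentOfCardEqFinrank hd2 (by simp [hB])
  have hb0 : b 0 = d := by simp [b]
  let ψ : B →ₗ[K] K := b.coord 0
  let φ : B →ₗ[K] K := b.coord 1
  have hψd : ψ d = 1 := by
    rw [← hb0]
    simp [ψ]
  have hφd : φ d = 0 := by
    rw [← hb0]
    simp [φ]
  have hnon0 : ∀ z : B, ψ z = 0 → φ z = 0 → z = 0 := by
    intro z hz1 hz2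
    rw [← b.sum_repr z, Fin.sum_univ_two]
    have e1 : b.repr z 0 = 0 := hz1
    have e2 : b.repr z 1 = 0 := hz2
    rw [e1, e2]
    simp
  -- the vanishing of the determinant
  have hdet : ∀ S : A →ₗ[K] B, (∃ y, y ≠ 0 ∧ S y = 0) →
      ψ (S c) * φ (S c') - φ (S c) * ψ (S c') = 0 := by
    rintro S ⟨y, hy, hSy⟩
    obtain ⟨α, β, hab⟩ := hspan y
    rw [← hab, map_add, map_smul, map_smul] at hSy
    have e1 := congrArg ψ hSy
    have e2 := congrArg φ hSy
    rw [map_add, map_smul, map_smul, map_zero] at e1 e2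
    simp only [smul_eq_mul] at e1 e2
    by_cases hα : α = 0
    · have hβ : β ≠ 0 := by
        rintro rfl
        apply hy
        rw [← hab, hα]
        simp
      have e3 : β * (ψ (S c) * φ (S c') - φ (S c) * ψ (S c')) = 0 := by
        subst hα
        simp only [zero_mul, zero_add] at e1 e2
        linear_combination (ψ (S c)) * e2 - (φ (S c)) * e1
      exact (mul_eq_zero.mp e3).resolve_left hβ
    · have e3 : α * (ψ (S c) * φ (S c') - φ (S c) * ψ (S c')) = 0 := by
        linear_combination (φ (S c')) * e1 - (ψ (S c')) * e2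
      exact (mul_eq_zero.mp e3).resolve_left hα
  -- values of the two given maps
  set d' := T n c with hd'
  have hd'0 : d' ≠ 0 := hn
  have hφd' : φ d' = 0 := by
    have h4 := hdet (T n + T a) (h2 n a hna)
    simp only [LinearMap.add_apply, hcT, hc'T, add_zero, zero_add, ← hd, ← hd', hψd, hφd] at h4
    linear_combination -h4
  have hψd' : ψ d' ≠ 0 := fun h0 => hd'0 (hnon0 _ h0 hφd')
  -- every map has image inside the line through `d`
  have hφc : ∀ j, φ (T j c) = 0 := by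
    intro j
    by_cases hja : j = a
    · rw [hja, hcT, map_zero]
    by_cases hjn : j = n
    · rw [hjn]
      exact hφd'
    have e1 := hdet (T j) (h1 j)
    have e2 := hdet (T j + T a) (h2 j a hja)
    simp only [LinearMap.add_apply, hcT, add_zero, ← hd, map_add, hψd, hφd] at e2
    linear_combination e1 - e2
  have hφc' : ∀ j, φ (T j c') = 0 := by
    intro j
    by_cases hja : j = a
    · rw [hja]
      exact hφd
    by_cases hjn : j = n
    · rw [hjn, hc'T, map_zero]
    have e1 := hdet (T j) (h1 j)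
    have e2 := hdet (T j + T n) (h2 j n hjn)
    simp only [LinearMap.add_apply, hc'T, add_zero, ← hd', map_add, hφd'] at e2
    have e3 : ψ d' * φ (T j c') = 0 := by
      linear_combination e2 - e1
    exact (mul_eq_zero.mp e3).resolve_left hψd'
  have hφ0 := h3 φ (by
    intro i y
    obtain ⟨α, β, hab⟩ := hspan y
    rw [← hab, map_add, map_smul, map_smul, map_add, map_smul, map_smul, hφc, hφc']
    simp)
  have h5 : φ (b 1) = 1 := by simp [φ]
  rw [hφ0] at h5
  simp at h5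

/-- Existence of a linear form injective from `Hd 2 / V` to `Hd 3 / U`, for planes. -/
theorem exists_l2 {V U : Submodule K (MvPolynomial (Fin 3) K)}
    (hV : V ≤ Hd K 2) (hU : U ≤ Hd K 3) (hVU : Hd K 1 * V ≤ U)
    (h4 : finrank K V = 4) (h8 : finrank K U = 8) :
    ∃ l ∈ Hd K 1, ∀ g ∈ Hd K 2, l * g ∈ U → g ∈ V := by
  by_contra hno
  push Not at hno
  obtain ⟨σ, hσ1, hσ2⟩ := exists_sigma (K := K) 2 V
  have hA := finrank_Qt hV
  have hB := finrank_Qt hU
  rw [finrank_Hd] at hA hB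
  have hA' : finrank K (Qt K 2 V) + finrank K V = 6 := hA
  have hB' : finrank K (Qt K 3 U) + finrank K U = 10 := hB
  have hkey : ∀ m ∈ Hd K 1, ∀ g ∈ Hd K 2, rho 3 U (m * σ (rho 2 V g)) = rho 3 U (m * g) := by
    intro m hm g hg
    rw [← sub_eq_zero, ← map_sub, ← mul_sub, rho_eq_zero_iff
      (Hd_mul_mem hm (Submodule.sub_mem _ (hσ1 _) hg))]
    have h1 := sub_sigma_mem hσ1 hσ2 hg
    have h2 : m * (g - σ (rho 2 V g)) ∈ U := hVU (Submodule.mul_mem_mul hm h1)
    have h3 := U.neg_mem h2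
    rwa [← mul_neg, neg_sub] at h3
  have hne : ∀ g ∈ Hd K 2, g ∉ V → rho 2 V g ≠ 0 := fun g hg hgV h0 =>
    hgV ((rho_eq_zero_iff hg).mp h0)
  let T : Fin 3 → (Qt K 2 V →ₗ[K] Qt K 3 U) :=
    fun i => rho 3 U ∘ₗ LinearMap.mulLeft K (X i) ∘ₗ σ
  have hTapp : ∀ i y, T i y = rho 3 U (X i * σ y) := fun _ _ => rfl
  have h1 : ∀ i, ∃ y, y ≠ 0 ∧ T i y = 0 := by
    intro i
    obtain ⟨g, hg, hgU, hgV⟩ := hno (X i) (X_mem_Hd i)
    refine ⟨rho 2 V g, hne g hg hgV, ?_⟩
    rw [hTapp, hkey _ (X_mem_Hd i) _ hg]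
    exact (rho_eq_zero_iff (hU hgU)).mpr hgU
  have h2 : ∀ i j, i ≠ j → ∃ y, y ≠ 0 ∧ (T i + T j) y = 0 := by
    intro i j _
    have hl : (X i + X j : MvPolynomial (Fin 3) K) ∈ Hd K 1 :=
      Submodule.add_mem _ (X_mem_Hd i) (X_mem_Hd j)
    obtain ⟨g, hg, hgU, hgV⟩ := hno _ hl
    refine ⟨rho 2 V g, hne g hg hgV, ?_⟩
    rw [LinearMap.add_apply, hTapp, hTapp, ← map_add, ← add_mul, hkey _ hl _ hg]
    exact (rho_eq_zero_iff (hU hgU)).mpr hgU
  have h3 : ∀ φ : Qt K 3 U →ₗ[K] K, (∀ i y, φ (T i y) = 0) → φ = 0 := by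
    intro φ hφ
    ext w
    simp only [LinearMap.comp_apply, LinearMap.zero_apply]
    have hw : w.1 ∈ Hd K 1 * Hd K 2 := by
      rw [Hd_one_mul 2]
      exact w.2
    have hN : w.1 ∈ LinearMap.ker (φ ∘ₗ rho 3 U) := by
      refine (Submodule.mul_le.mpr ?_ : Hd K 1 * Hd K 2 ≤ LinearMap.ker (φ ∘ₗ rho 3 U)) hw
      intro m hm g hg
      refine lin_mul_mem (U := LinearMap.ker (φ ∘ₗ rho 3 U)) (g := g) ?_ m hm
      intro i
      rw [LinearMap.mem_ker, LinearMap.comp_apply, ← hkey _ (X_mem_Hd i) _ hg, ← hTapp]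
      exact hφ _ _
    rw [LinearMap.mem_ker, LinearMap.comp_apply, rho_of_mem w.2] at hN
    exact hN
  obtain ⟨y, hy, hTy⟩ := pencil (by omega) (by omega) T h1 h2 h3
  have hgV : σ y ∉ V := by
    intro h0
    apply hy
    rw [← hσ2 y]
    exact (rho_eq_zero_iff (hσ1 y)).mpr h0
  have hX : ∀ i, X i * σ y ∈ U := by
    intro i
    have h5 := hTy i
    rwa [hTapp, rho_eq_zero_iff (Hd_mul_mem (X_mem_Hd i) (hσ1 y))] at h5
  have h6 := no_common hV hU hVU (hσ1 y) hgV hX
  rw [h4, h8] at h6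
  revert h6
  decide

/-- Existence of a linear form injective from `Hd 2 / V` to `Hd 3 / U`, for lines. -/
theorem exists_l1 {V U : Submodule K (MvPolynomial (Fin 3) K)}
    (hV : V ≤ Hd K 2) (hU : U ≤ Hd K 3) (hVU : Hd K 1 * V ≤ U)
    (h5 : finrank K V = 5) (h9 : finrank K U = 9) :
    ∃ l ∈ Hd K 1, ∀ g ∈ Hd K 2, l * g ∈ U → g ∈ V := by
  have hlt : V < Hd K 2 := by
    refine lt_of_le_of_ne hV ?_
    intro he
    have h1 : finrank K (Hd K 2) = 6 := by rw [finrank_Hd]; rfl
    rw [← he] at h1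
    omega
  obtain ⟨g, hg, hgV⟩ := SetLike.exists_of_lt hlt
  have hex : ∃ i, X i * g ∉ U := by
    by_contra hall
    push Not at hall
    have h6 := no_common hV hU hVU hg hgV hall
    rw [h5, h9] at h6
    revert h6
    decide
  obtain ⟨i, hi⟩ := hex
  refine ⟨X i, X_mem_Hd i, ?_⟩
  intro h hh hhU
  have := fin_of_le hV
  -- the sum is everything
  have hW : V ⊔ Submodule.span K {g} = Hd K 2 := by
    have hW1 : V ⊔ Submodule.span K {g} ≤ Hd K 2 :=
      sup_le hV (by rw [Submodule.span_singleton_le_iff_mem]; exact hg)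
    refine Submodule.eq_of_le_of_finrank_le hW1 ?_
    have h1 : V ⊓ Submodule.span K {g} = ⊥ := by
      rw [Submodule.eq_bot_iff]
      rintro x ⟨hx1, hx2⟩
      obtain ⟨c, rfl⟩ := Submodule.mem_span_singleton.mp hx2
      by_cases hc : c = 0
      · simp [hc]
      · exact absurd ((Submodule.smul_mem_iff _ hc).mp hx1) hgV
    have h2 := Submodule.finrank_sup_add_finrank_inf_eq V (Submodule.span K {g})
    rw [h1, finrank_bot, add_zero, finrank_span_singleton (by rintro rfl; exact hgV V.zero_mem),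
      h5] at h2
    rw [h2, finrank_Hd]
    decide
  have hh' : h ∈ V ⊔ Submodule.span K {g} := by
    rw [hW]
    exact hh
  obtain ⟨v, hv, z, hz, rfl⟩ := Submodule.mem_sup.mp hh'
  obtain ⟨c, rfl⟩ := Submodule.mem_span_singleton.mp hz
  by_cases hc : c = 0
  · simpa [hc] using hv
  · exfalso
    apply hi
    have h1 : X i * v ∈ U := hVU (Submodule.mul_mem_mul (X_mem_Hd i) hv)
    rw [mul_add, mul_smul_comm] at hhU
    have h2 := (Submodule.add_mem_iff_right U h1).mp hhU
    exact (Submodule.smul_mem_iff _ hc).mp h2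

/-- Persistence of Hilbert functions in the two critical cases: `(V)` contains no power of a
suitable linear form. -/
theorem persist {V U : Submodule K (MvPolynomial (Fin 3) K)}
    (hV : V ≤ Hd K 2) (hU : U ≤ Hd K 3) (hVU : Hd K 1 * V ≤ U)
    (hdim : (finrank K V = 4 ∧ finrank K U = 8) ∨ (finrank K V = 5 ∧ finrank K U = 9)) :
    ∃ l ∈ Hd K 1, ∀ k, l ^ k ∉ Ideal.span (V : Set (MvPolynomial (Fin 3) K)) := by
  have hex : ∃ l ∈ Hd K 1, ∀ g ∈ Hd K 2, l * g ∈ U → g ∈ V := by
    rcases hdim with ⟨h1, h2⟩ | ⟨h1, h2⟩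
    · exact exists_l2 hV hU hVU h1 h2
    · exact exists_l1 hV hU hVU h1 h2
  obtain ⟨l, hl, hinj⟩ := hex
  have hV6 : finrank K V < 6 := by
    rcases hdim with ⟨h1, h2⟩ | ⟨h1, h2⟩ <;> omega
  have hl0 : l ≠ 0 := by
    rintro rfl
    have h1 : Hd K 2 ≤ V := fun g hg => hinj g hg (by simp)
    have h2 := finrank_mono_Hd h1 hV
    rw [finrank_Hd] at h2
    have h3 : (2 + 2).choose 2 = 6 := rfl
    omega
  have hsurj := hsurj_of_inj hV hl hl0 hVU hinj (by
    rcases hdim with ⟨h1, h2⟩ | ⟨h1, h2⟩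
    · exact Or.inl h1
    · exact Or.inr h1)
  refine ⟨l, hl, fun k => persist_of_inj hV hU hl hVU hinj ?_ hV6 hsurj k⟩
  rcases hdim with ⟨h1, h2⟩ | ⟨h1, h2⟩ <;> omega

end Vale.Agent.Lib.P200
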