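import Vale.Agent.Lib.P200.Hilb

namespace Vale.Agent.Lib.P200

open MvPolynomial Module

variable {K : Type*} [Field K]

lemma reg_X : RegSeq (X 0 : MvPolynomial (Fin 3) K) (X 1) (X 2) := by
  classical
  refine ⟨X_ne_zero _, ?_, ?_⟩
  · intro u hu
    have hs : ∀ g : MvPolynomial (Fin 3) K, g ∈ Ideal.span {(X 0 : MvPolynomial (Fin 3) K)} ↔
        ∀ m ∈ g.support, ∃ i ∈ ({0} : Set (Fin 3)), m i ≠ 0 := by
      intro g
      rw [← mem_ideal_span_X_image, Set.image_singleton]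
    rw [hs] at hu ⊢
    intro m hm
    have h1 : Finsupp.single (1 : Fin 3) 1 + m ∈ (X 1 * u).support := by
      rw [MvPolynomial.mem_support_iff, coeff_X_mul]
      exact MvPolynomial.mem_support_iff.mp hm
    obtain ⟨i, hi, hne⟩ := hu _ h1
    rw [Set.mem_singleton_iff] at hi
    subst hi
    exact ⟨0, rfl, by simpa using hne⟩
  · intro u hu
    have hs : ∀ g : MvPolynomial (Fin 3) K, g ∈ Ideal.span {(X 0 : MvPolynomial (Fin 3) K), X 1} ↔
        ∀ m ∈ g.support, ∃ i ∈ ({0, 1} : Set (Fin 3)), m i ≠ 0 := by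
      intro g
      rw [← mem_ideal_span_X_image, Set.image_pair]
    rw [hs] at hu ⊢
    intro m hm
    have h1 : Finsupp.single (2 : Fin 3) 1 + m ∈ (X 2 * u).support := by
      rw [MvPolynomial.mem_support_iff, coeff_X_mul]
      exact MvPolynomial.mem_support_iff.mp hm
    obtain ⟨i, hi, hne⟩ := hu _ h1
    refine ⟨i, hi, ?_⟩
    have hi2 : i ≠ 2 := by
      rintro rfl
      simp at hi
    simpa [Finsupp.single_apply, hi2.symm] using hne

variable {a b c : MvPolynomial (Fin 3) K}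

/-- Syzygies in low degree have low degree Koszul coefficients. -/
lemma E1_low (h : RegSeq a b c) (ha : a ∈ Hd K 3) (hb : b ∈ Hd K 3) (hc : c ∈ Hd K 3) {n : ℕ}
    (hn : n ≤ 4) {x y z : MvPolynomial (Fin 3) K} (hx : x ∈ Hd K n) (hy : y ∈ Hd K n)
    (hz : z ∈ Hd K n) (hs : x * a + y * b + z * c = 0) :
    ∃ p q r, x = q * c - r * b ∧ y = r * a - p * c ∧ z = p * b - q * a ∧
      p.totalDegree ≤ 1 ∧ q.totalDegree ≤ 1 ∧ r.totalDegree ≤ 1 := by
  obtain ⟨p, q, r, h1, h2, h3⟩ := h.E1 hs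
  rcases Nat.lt_or_ge n 3 with hn3 | hn3
  · have hx0 : x = 0 := low_zero (x := 0) (y := -r) (z := q) ha hb hc hn3 hx (by rw [h1]; ring)
    have hy0 : y = 0 := low_zero (x := r) (y := 0) (z := -p) ha hb hc hn3 hy (by rw [h2]; ring)
    have hz0 : z = 0 := low_zero (x := -q) (y := p) (z := 0) ha hb hc hn3 hz (by rw [h3]; ring)
    exact ⟨0, 0, 0, by simpa using hx0, by simpa using hy0, by simpa using hz0, by simp, by simp, by simp⟩
  · obtain ⟨k, rfl⟩ : ∃ k, n = 3 + k := ⟨n - 3, by omega⟩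
    have hk : k ≤ 1 := by omega
    have e1 := homog_decomp3 (x := 0) (y := -r) (z := q) ha hb hc hx (by rw [h1]; ring)
    have e2 := homog_decomp3 (x := r) (y := 0) (z := -p) ha hb hc hy (by rw [h2]; ring)
    have e3 := homog_decomp3 (x := -q) (y := p) (z := 0) ha hb hc hz (by rw [h3]; ring)
    simp only [map_neg, map_zero, zero_mul, zero_add, add_zero] at e1 e2 e3
    have hdeg : ∀ w : MvPolynomial (Fin 3) K, (homogeneousComponent k w).totalDegree ≤ 1 := fun w =>
      le_trans (homogeneousComponent_isHomogeneous k w).totalDegree_le hk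
    refine ⟨homogeneousComponent k p, homogeneousComponent k q, homogeneousComponent k r,
      ?_, ?_, ?_, hdeg p, hdeg q, hdeg r⟩
    · rw [← e1]; ring
    · rw [← e2]; ring
    · rw [← e3]; ring

lemma totalDegree_combo {p q r : MvPolynomial (Fin 3) K} (hp : p.totalDegree ≤ 1)
    (hq : q.totalDegree ≤ 1) (hr : r.totalDegree ≤ 1) :
    (X 0 * p + X 1 * q + X 2 * r : MvPolynomial (Fin 3) K).totalDegree ≤ 2 := by
  have h1 : ∀ (i : Fin 3) (w : MvPolynomial (Fin 3) K), w.totalDegree ≤ 1 →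
      (X i * w : MvPolynomial (Fin 3) K).totalDegree ≤ 2 := by
    intro i w hw
    refine le_trans (totalDegree_mul _ _) ?_
    rw [totalDegree_X]
    omega
  refine le_trans (totalDegree_add _ _) (max_le (le_trans (totalDegree_add _ _) (max_le ?_ ?_)) ?_)
  · exact h1 0 p hp
  · exact h1 1 q hq
  · exact h1 2 r hr

/-- A multiple of a form of degree three of total degree at most two is zero: the multiplier
vanishes. -/
lemma mul_low_zero (ha0 : a ≠ 0) (ha : a ∈ Hd K 3) {t : MvPolynomial (Fin 3) K}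
    (h : (t * a).totalDegree ≤ 2) : t = 0 := by
  by_contra ht
  rw [totalDegree_mul_of_isDomain ht ha0, IsHomogeneous.totalDegree ha ha0] at h
  omega

/-- The elimination step in one column. -/
lemma column_step {A0 A1 A2 p q r : MvPolynomial (Fin 3) K}
    (h0 : X 1 * A2 - X 2 * A1 = q * X 2 - r * X 1)
    (h1 : X 2 * A0 - X 0 * A2 = r * X 0 - p * X 2)
    (h2 : X 0 * A1 - X 1 * A0 = p * X 1 - q * X 0) :
    ∃ g, A0 = g * X 0 - p ∧ A1 = g * X 1 - q ∧ A2 = g * X 2 - r := by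
  obtain ⟨g, e0, e1, e2⟩ := (reg_X (K := K)).E2 (p := A0 + p) (q := A1 + q) (r := A2 + r)
    (by linear_combination -h2) (by linear_combination -h1)
  exact ⟨g, by linear_combination e0, by linear_combination e1, by linear_combination e2⟩

/-- The socle of the complete intersection is concentrated in degree six (and higher). -/
theorem socle_free (h : RegSeq a b c) (ha : a ∈ Hd K 3) (hb : b ∈ Hd K 3) (hc : c ∈ Hd K 3)
    {u : MvPolynomial (Fin 3) K} {d : ℕ} (hu : u ∈ Hd K d) (hd : d ≤ 5)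
    (hmul : ∀ i, X i * u ∈ Ideal.span {a, b, c}) : u ∈ Ideal.span {a, b, c} := by
  rcases Nat.lt_or_ge d 2 with hd2 | hd2
  · obtain ⟨x, y, z, hs⟩ := mem_span3.mp (hmul 0)
    have h0 : (X 0 * u : MvPolynomial (Fin 3) K) = 0 :=
      low_zero ha hb hc (by omega : 1 + d < 3) (Hd_mul_mem (X_mem_Hd 0) hu) hs
    have hu0 : u = 0 := by
      rcases mul_eq_zero.mp h0 with h1 | h1
      · exact absurd h1 (X_ne_zero _)
      · exact h1
    rw [hu0]
    exact Submodule.zero_mem _
  obtain ⟨e, rfl⟩ : ∃ e, d = 2 + e := ⟨d - 2, by omega⟩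
  have hmem : ∀ i : Fin 3, X i * u ∈ Hd K (3 + e) := fun i => by
    have := Hd_mul_mem (X_mem_Hd (K := K) i) hu
    rwa [show 1 + (2 + e) = 3 + e by omega] at this
  have hdec : ∀ i : Fin 3, ∃ x y z : MvPolynomial (Fin 3) K, x ∈ Hd K e ∧ y ∈ Hd K e ∧ z ∈ Hd K e ∧
      x * a + y * b + z * c = X i * u := by
    intro i
    obtain ⟨x, y, z, hs⟩ := mem_span3.mp (hmul i)
    exact ⟨_, _, _, homogeneousComponent_mem e x, homogeneousComponent_mem e y,
      homogeneousComponent_mem e z, homog_decomp3 ha hb hc (hmem i) hs⟩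
  obtain ⟨A00, A01, A02, hA00, hA01, hA02, h0⟩ := hdec 0
  obtain ⟨A10, A11, A12, hA10, hA11, hA12, h1⟩ := hdec 1
  obtain ⟨A20, A21, A22, hA20, hA21, hA22, h2⟩ := hdec 2
  have hcr : ∀ (i j : Fin 3) {v w : MvPolynomial (Fin 3) K}, v ∈ Hd K e → w ∈ Hd K e →
      X i * v - X j * w ∈ Hd K (1 + e) := fun i j _ _ hv hw =>
    Submodule.sub_mem _ (Hd_mul_mem (X_mem_Hd i) hv) (Hd_mul_mem (X_mem_Hd j) hw)
  -- the first syzygies
  obtain ⟨B00, B01, B02, c00, c01, c02, dB00, dB01, dB02⟩ := E1_low h ha hb hc (by omega : 1 + e ≤ 4)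
    (hcr 1 2 hA20 hA10) (hcr 1 2 hA21 hA11) (hcr 1 2 hA22 hA12)
    (by linear_combination X 1 * h2 - X 2 * h1)
  obtain ⟨B10, B11, B12, c10, c11, c12, dB10, dB11, dB12⟩ := E1_low h ha hb hc (by omega : 1 + e ≤ 4)
    (hcr 2 0 hA00 hA20) (hcr 2 0 hA01 hA21) (hcr 2 0 hA02 hA22)
    (by linear_combination X 2 * h0 - X 0 * h2)
  obtain ⟨B20, B21, B22, c20, c21, c22, dB20, dB21, dB22⟩ := E1_low h ha hb hc (by omega : 1 + e ≤ 4)
    (hcr 0 1 hA10 hA00) (hcr 0 1 hA11 hA01) (hcr 0 1 hA12 hA02)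
    (by linear_combination X 0 * h1 - X 1 * h0)
  -- the second syzygies
  obtain ⟨t, t0, t1, t2⟩ := h.E2 (p := X 0 * B00 + X 1 * B10 + X 2 * B20)
    (q := X 0 * B01 + X 1 * B11 + X 2 * B21) (r := X 0 * B02 + X 1 * B12 + X 2 * B22)
    (by linear_combination -X 0 * c02 - X 1 * c12 - X 2 * c22)
    (by linear_combination -X 0 * c01 - X 1 * c11 - X 2 * c21)
  have ht : t = 0 := by
    refine mul_low_zero h.h0 ha ?_
    rw [← t0]
    exact totalDegree_combo dB00 dB10 dB20
  rw [ht, zero_mul] at t0 t1 t2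
  -- exactness for the variables
  obtain ⟨p0, q0, r0, e00, e10, e20⟩ := (reg_X (K := K)).E1
    (x := B00) (y := B10) (z := B20) (by linear_combination t0)
  obtain ⟨p1, q1, r1, e01, e11, e21⟩ := (reg_X (K := K)).E1
    (x := B01) (y := B11) (z := B21) (by linear_combination t1)
  obtain ⟨p2, q2, r2, e02, e12, e22⟩ := (reg_X (K := K)).E1
    (x := B02) (y := B12) (z := B22) (by linear_combination t2)
  -- the three columns
  obtain ⟨g0, a00, a10, a20⟩ := column_step (A0 := A00) (A1 := A10) (A2 := A20)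
    (p := p1 * c - p2 * b) (q := q1 * c - q2 * b) (r := r1 * c - r2 * b)
    (by rw [c00, e01, e02]; ring) (by rw [c10, e11, e12]; ring) (by rw [c20, e21, e22]; ring)
  obtain ⟨g1, a01, a11, a21⟩ := column_step (A0 := A01) (A1 := A11) (A2 := A21)
    (p := p2 * a - p0 * c) (q := q2 * a - q0 * c) (r := r2 * a - r0 * c)
    (by rw [c01, e02, e00]; ring) (by rw [c11, e12, e10]; ring) (by rw [c21, e22, e20]; ring)
  obtain ⟨g2, a02, a12, a22⟩ := column_step (A0 := A02) (A1 := A12) (A2 := A22)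
    (p := p0 * b - p1 * a) (q := q0 * b - q1 * a) (r := r0 * b - r1 * a)
    (by rw [c02, e00, e01]; ring) (by rw [c12, e10, e11]; ring) (by rw [c22, e20, e21]; ring)
  have hfinal : (X 0 : MvPolynomial (Fin 3) K) * (u - (g0 * a + g1 * b + g2 * c)) = 0 := by
    rw [a00, a01, a02] at h0
    linear_combination -h0
  have hu0 : u - (g0 * a + g1 * b + g2 * c) = 0 := by
    rcases mul_eq_zero.mp hfinal with h3 | h3
    · exact absurd h3 (X_ne_zero _)
    · exact h3
  refine mem_span3.mpr ⟨g0, g1, g2, ?_⟩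
  linear_combination -hu0

end Vale.Agent.Lib.P200
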