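import Vale.Agent.Lib.P200.Low

namespace Vale.Agent.Lib.P200

open MvPolynomial Module

variable {K : Type*} [Field K]

/-- The linear map sending a tuple of forms of degree `e` to its combination with `u`. -/
noncomputable def syzMap {n : ℕ} (u : Fin n → MvPolynomial (Fin 3) K) (e : ℕ) :
    (Fin n → ↥(Hd K e)) →ₗ[K] MvPolynomial (Fin 3) K :=
  ∑ i, (LinearMap.mulRight K (u i)) ∘ₗ (Hd K e).subtype ∘ₗ LinearMap.proj i

lemma syzMap_apply {n : ℕ} (u : Fin n → MvPolynomial (Fin 3) K) (e : ℕ) (p : Fin n → ↥(Hd K e)) :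
    syzMap u e p = ∑ i, (p i).1 * u i := by
  simp [syzMap, LinearMap.sum_apply]

lemma range_syzMap {n : ℕ} (u : Fin n → MvPolynomial (Fin 3) K) (e : ℕ) :
    LinearMap.range (syzMap u e) = Hd K e * Submodule.span K (Set.range u) := by
  apply le_antisymm
  · rintro x ⟨p, rfl⟩
    rw [syzMap_apply]
    refine Submodule.sum_mem _ fun i _ => ?_
    exact Submodule.mul_mem_mul (p i).2 (Submodule.subset_span ⟨i, rfl⟩)
  · rw [Submodule.mul_le]
    intro x hx y hy
    induction hy using Submodule.span_induction with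
    | mem y hy =>
      obtain ⟨i, rfl⟩ := hy
      refine ⟨Pi.single i ⟨x, hx⟩, ?_⟩
      rw [syzMap_apply, Finset.sum_eq_single i]
      · simp
      · intro j _ hj
        simp [Pi.single_eq_of_ne hj]
      · intro h
        exact absurd (Finset.mem_univ i) h
    | zero =>
      rw [mul_zero]
      exact Submodule.zero_mem _
    | add a b _ _ ha hb =>
      rw [mul_add]
      exact Submodule.add_mem _ ha hb
    | smul c a _ ha =>
      rw [mul_smul_comm]
      exact Submodule.smul_mem _ c ha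

lemma finrank_ker_syz {n : ℕ} (u : Fin n → MvPolynomial (Fin 3) K) (e : ℕ) :
    finrank K (LinearMap.ker (syzMap u e)) + finrank K ↥(Hd K e * Submodule.span K (Set.range u))
      = n * finrank K (Hd K e) := by
  have h1 := LinearMap.finrank_range_add_finrank_ker (syzMap u e)
  rw [range_syzMap] at h1
  have h2 : finrank K (Fin n → ↥(Hd K e)) = n * finrank K (Hd K e) := by
    rw [Module.finrank_pi_fintype]
    simp
  omega

/-- A basis of a subspace, in the form of a family of polynomials. -/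
lemma exists_fam {V : Submodule K (MvPolynomial (Fin 3) K)} [Module.Finite K V] {n : ℕ}
    (hn : finrank K V = n) :
    ∃ u : Fin n → MvPolynomial (Fin 3) K, LinearIndependent K u ∧
      Submodule.span K (Set.range u) = V := by
  let b := Module.finBasisOfFinrankEq K V hn
  refine ⟨fun i => (b i).1, ?_, ?_⟩
  · exact b.linearIndependent.map' V.subtype (Submodule.ker_subtype V)
  · have h1 : Set.range (fun i => (b i).1) = V.subtype '' Set.range b := by
      rw [← Set.range_comp]
      rfl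
    rw [h1, ← Submodule.map_span, b.span_eq, Submodule.map_top, Submodule.range_subtype]

lemma fam_mem {V : Submodule K (MvPolynomial (Fin 3) K)} {n : ℕ} {u : Fin n → MvPolynomial (Fin 3) K}
    (hu : Submodule.span K (Set.range u) = V) (i : Fin n) : u i ∈ V := by
  rw [← hu]
  exact Submodule.subset_span ⟨i, rfl⟩

/-- Dimension two. -/
theorem factor_of_two {V : Submodule K (MvPolynomial (Fin 3) K)} (hV : V ≤ Hd K 2)
    (h2 : finrank K V = 2) (hU : finrank K ↥(Hd K 1 * V) ≤ 5) :
    ∃ l ∈ Hd K 1, l ≠ 0 ∧ V ≤ gmul l (Hd K 1) := by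
  have := fin_of_le hV
  obtain ⟨u, hli, hsp⟩ := exists_fam h2
  have hker := finrank_ker_syz u 1
  rw [hsp, finrank_Hd] at hker
  have hc : (1 + 2).choose 2 = 3 := rfl
  rw [hc] at hker
  have hpos : 0 < finrank K (LinearMap.ker (syzMap u 1)) := by omega
  obtain ⟨p, hp⟩ := Submodule.exists_mem_ne_zero_of_ne_bot
    (fun h => by rw [h, finrank_bot] at hpos; omega : LinearMap.ker (syzMap u 1) ≠ ⊥)
  obtain ⟨hpk, hp0⟩ := hp
  rw [LinearMap.mem_ker, syzMap_apply, Fin.sum_univ_two] at hpk
  have hind : Ind2 (u 0) (u 1) := by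
    intro α β hab
    have h1 := Fintype.linearIndependent_iff.mp hli ![α, β] (by simpa using hab)
    exact ⟨by simpa using h1 0, by simpa using h1 1⟩
  have hne : ¬ ((p 0).1 = 0 ∧ (p 1).1 = 0) := by
    rintro ⟨h0, h1⟩
    apply hp0
    funext i
    fin_cases i
    · exact Subtype.ext h0
    · exact Subtype.ext h1
  obtain ⟨l, a, b, hl, ha, hb, hl0, e1, e2⟩ := common_factor_two (hV (fam_mem hsp 1)) (p 0).2 (p 1).2
    hind hpk hne
  refine ⟨l, hl, hl0, ?_⟩
  rw [← hsp, Submodule.span_le]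
  rintro _ ⟨i, rfl⟩
  fin_cases i
  · exact mem_gmul.mpr ⟨a, ha, e1.symm⟩
  · exact mem_gmul.mpr ⟨b, hb, e2.symm⟩

/-- Independent pairs in a three dimensional space with small growth have linear syzygies. -/
theorem claimA {V : Submodule K (MvPolynomial (Fin 3) K)} (hV : V ≤ Hd K 2)
    (h3 : finrank K V = 3) (hU : finrank K ↥(Hd K 1 * V) ≤ 6)
    {x y : MvPolynomial (Fin 3) K} (hx : x ∈ V) (hy : y ∈ V) :
    ∃ p ∈ Hd K 1, ∃ q ∈ Hd K 1, p * x + q * y = 0 ∧ ¬ (p = 0 ∧ q = 0) := by
  by_contra hcon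
  have hsyz : ∀ p ∈ Hd K 1, ∀ q ∈ Hd K 1, p * x + q * y = 0 → p = 0 ∧ q = 0 := by
    intro p hp q hq hs
    by_contra hne
    exact hcon ⟨p, hp, q, hq, hs, hne⟩
  let u : Fin 2 → MvPolynomial (Fin 3) K := ![x, y]
  have hkerbot : LinearMap.ker (syzMap u 1) = ⊥ := by
    rw [LinearMap.ker_eq_bot']
    intro p hp
    rw [syzMap_apply, Fin.sum_univ_two] at hp
    have h1 := hsyz (p 0).1 (p 0).2 (p 1).1 (p 1).2 hp
    funext i
    fin_cases i
    · exact Subtype.ext h1.1
    · exact Subtype.ext h1.2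
  have hker := finrank_ker_syz u 1
  rw [hkerbot, finrank_bot, finrank_Hd] at hker
  have hc : (1 + 2).choose 2 = 3 := rfl
  rw [hc] at hker
  have hspan : Submodule.span K (Set.range u) ≤ V := by
    rw [Submodule.span_le]
    rintro _ ⟨i, rfl⟩
    fin_cases i
    · exact hx
    · exact hy
  have hle1 : Hd K 1 * Submodule.span K (Set.range u) ≤ Hd K 1 * V := mul_le_mul' le_rfl hspan
  have hUfin := fin_of_le (mul_le_Hd hV)
  have heq : Hd K 1 * Submodule.span K (Set.range u) = Hd K 1 * V :=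
    Submodule.eq_of_le_of_finrank_le hle1 (by omega)
  -- an element outside the span of the pair
  have hfinV := fin_of_le hV
  have hex : ∃ z ∈ V, z ∉ Submodule.span K (Set.range u) := by
    by_contra hno
    push Not at hno
    have h4 : V ≤ Submodule.span K (Set.range u) := hno
    have hfinsp : Module.Finite K (Submodule.span K (Set.range u)) :=
      FiniteDimensional.span_of_finite K (Set.finite_range u)
    have h5 : finrank K V ≤ finrank K (Submodule.span K (Set.range u)) :=
      Submodule.finrank_mono (s := V) (t := Submodule.span K (Set.range u)) h4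
    have h6 : finrank K (Submodule.span K (Set.range u)) ≤ 2 := by
      have := finrank_range_le_card (R := K) u
      simpa [Set.finrank] using this
    omega
  obtain ⟨z, hz, hzu⟩ := hex
  have hz2 : ∀ i, X i * z ∈ gmul x (Hd K 1) ⊔ gmul y (Hd K 1) := by
    intro i
    have h5 : X i * z ∈ Hd K 1 * V := Submodule.mul_mem_mul (X_mem_Hd i) hz
    rw [← heq, ← range_syzMap] at h5
    obtain ⟨p, hp⟩ := h5
    rw [syzMap_apply, Fin.sum_univ_two] at hp
    rw [← hp]
    refine Submodule.add_mem _ (Submodule.mem_sup_left ?_) (Submodule.mem_sup_right ?_)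
    · exact mem_gmul.mpr ⟨(p 0).1, (p 0).2, mul_comm _ _⟩
    · exact mem_gmul.mpr ⟨(p 1).1, (p 1).2, mul_comm _ _⟩
  obtain ⟨α, β, hzz⟩ := pair_chase (hV hx) (hV hy) hsyz hz2
  apply hzu
  rw [hzz]
  refine Submodule.add_mem _ (Submodule.smul_mem _ _ (Submodule.subset_span ⟨0, rfl⟩))
    (Submodule.smul_mem _ _ (Submodule.subset_span ⟨1, rfl⟩))

/-- Dimension three with minimal growth: a common linear factor. -/
theorem factor_of_three {V : Submodule K (MvPolynomial (Fin 3) K)} (hV : V ≤ Hd K 2)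
    (h3 : finrank K V = 3) (hU : finrank K ↥(Hd K 1 * V) ≤ 6) :
    ∃ l ∈ Hd K 1, l ≠ 0 ∧ V ≤ gmul l (Hd K 1) := by
  have := fin_of_le hV
  obtain ⟨u, hli, hsp⟩ := exists_fam h3
  have hind3 : ∀ α β γ : K, α • u 0 + β • u 1 + γ • u 2 = 0 → α = 0 ∧ β = 0 ∧ γ = 0 := by
    intro α β γ hab
    have h1 := Fintype.linearIndependent_iff.mp hli ![α, β, γ] (by
      rw [Fin.sum_univ_three]
      simpa using hab)
    exact ⟨by simpa using h1 0, by simpa using h1 1, by simpa using h1 2⟩
  have hm : ∀ i, u i ∈ V := fam_mem hsp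
  have pf : ∀ p ∈ V, ∀ q ∈ V, Ind2 p q → ∃ l a b, l ∈ Hd K 1 ∧ a ∈ Hd K 1 ∧ b ∈ Hd K 1 ∧ l ≠ 0 ∧
      p = l * a ∧ q = l * b := by
    intro p hp q hq hind
    obtain ⟨r, hr, s, hs, hrs, hne⟩ := claimA hV h3 hU hp hq
    exact common_factor_two (hV hq) hr hs hind hrs hne
  set x := u 0 with hx
  set y := u 1 with hy
  set z := u 2 with hz
  have hz2 : z ∈ Hd K 2 := hV (hm 2)
  have hz0 : z ≠ 0 := by
    intro h
    have := (hind3 0 0 1 (by simp [h])).2.2
    exact one_ne_zero this
  obtain ⟨l, a, b, hl, ha, hb, hl0, ex, ey⟩ := pf x (hm 0) y (hm 1) (by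
    intro α β h
    have := hind3 α β 0 (by simpa using h)
    exact ⟨this.1, this.2.1⟩)
  by_cases hlz : l ∣ z
  · obtain ⟨c, hc⟩ := hlz
    have hc' := homog_quot (e := 1) (k := 1) hl hz2 hc
    refine ⟨l, hl, hl0, ?_⟩
    rw [← hsp, Submodule.span_le]
    rintro _ ⟨i, rfl⟩
    fin_cases i
    · exact mem_gmul.mpr ⟨a, ha, ex.symm⟩
    · exact mem_gmul.mpr ⟨b, hb, ey.symm⟩
    · exact mem_gmul.mpr ⟨_, homogeneousComponent_mem 1 c, hc'.symm⟩
  · exfalso
    have hx0 : x ≠ 0 := by
      intro h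
      have := (hind3 1 0 0 (by simp [h])).1
      exact one_ne_zero this
    have hy0 : y ≠ 0 := by
      intro h
      have := (hind3 0 1 0 (by simp [h])).2.1
      exact one_ne_zero this
    have ha0 : a ≠ 0 := by
      rintro rfl
      exact hx0 (by rw [ex, mul_zero])
    have hb0 : b ≠ 0 := by
      rintro rfl
      exact hy0 (by rw [ey, mul_zero])
    have hab : ¬ a ∣ b := by
      intro hd
      obtain ⟨κ, rfl⟩ := lin_dvd ha hb hd
      have h1 := (hind3 κ (-1) 0 (by
        rw [ex, ey, smul_eq_C_mul]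
        simp only [neg_smul, one_smul, zero_smul, add_zero]
        ring)).2.1
      exact one_ne_zero (neg_eq_zero.mp h1)
    have hba : ¬ b ∣ a := fun hd => hab (lin_dvd_symm hb ha ha0 hd)
    have hstep : ∀ t ∈ V, ∀ t' ∈ Hd K 1, t' ≠ 0 → t = l * t' → Ind2 t z → t' ∣ z := by
      intro t ht t' ht' ht'0 htl hind
      obtain ⟨l1, a1, c1, hl1, ha1, hc1, hl10, e1, e2⟩ := pf t ht z (hm 2) hind
      have hdv : l1 ∣ l * t' := ⟨a1, by rw [← htl, e1]⟩
      rcases (lin_prime hl1 hl10).dvd_or_dvd hdv with h1 | h1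
      · exfalso
        apply hlz
        exact (lin_dvd_symm hl1 hl hl0 h1).trans ⟨c1, e2⟩
      · exact (lin_dvd_symm hl1 ht' ht'0 h1).trans ⟨c1, e2⟩
    have haz : a ∣ z := hstep x (hm 0) a ha ha0 ex (by
      intro α β h
      have := hind3 α 0 β (by simpa using h)
      exact ⟨this.1, this.2.2⟩)
    have hbz : b ∣ z := hstep y (hm 1) b hb hb0 ey (by
      intro α β h
      have := hind3 0 α β (by simpa using h)
      exact ⟨this.2.1, this.2.2⟩)
    obtain ⟨r, hr⟩ := haz
    have hbr : b ∣ r := by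
      have : b ∣ a * r := hr ▸ hbz
      exact ((lin_prime hb hb0).dvd_or_dvd this).resolve_left hba
    obtain ⟨s, hs⟩ := hbr
    have hzab : z = a * b * s := by rw [hr, hs]; ring
    have hs0 : s ≠ 0 := by
      rintro rfl
      rw [mul_zero] at hzab
      exact hz0 hzab
    have hsunit : IsUnit s := by
      refine isUnit_of_totalDegree_zero hs0 ?_
      have h1 := totalDegree_of_Hd hz2 hz0
      rw [hzab, totalDegree_mul_of_isDomain (mul_ne_zero ha0 hb0) hs0,
        totalDegree_mul_of_isDomain ha0 hb0, totalDegree_of_Hd ha ha0, totalDegree_of_Hd hb hb0] at h1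
      omega
    -- the pair `x + y`, `z`
    obtain ⟨l3, a3, c3, hl3, ha3, hc3, hl30, e1, e2⟩ := pf (x + y) (Submodule.add_mem _ (hm 0) (hm 1)) z
      (hm 2) (by
        intro α β h
        have := hind3 α α β (by
          rw [smul_add] at h
          simpa using h)
        exact ⟨this.1, this.2.2⟩)
    have hl3p := lin_prime hl3 hl30
    have hl3z : l3 ∣ z := ⟨c3, e2⟩
    have hdv : l3 ∣ l * (a + b) := ⟨a3, by rw [← e1, ex, ey]; ring⟩
    have hl3ab : l3 ∣ a ∨ l3 ∣ b := by
      rw [hzab] at hl3z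
      rcases hl3p.dvd_or_dvd hl3z with h1 | h1
      · exact hl3p.dvd_or_dvd h1
      · exact absurd (isUnit_of_dvd_unit h1 hsunit) hl3p.not_isUnit
    rcases hl3p.dvd_or_dvd hdv with h1 | h1
    · exact hlz ((lin_dvd_symm hl3 hl hl0 h1).trans hl3z)
    · rcases hl3ab with h2 | h2
      · have h3' : l3 ∣ b := (dvd_add_right h2).mp h1
        exact hab ((lin_dvd_symm hl3 ha ha0 h2).trans h3')
      · have h3' : l3 ∣ a := (dvd_add_left h2).mp h1
        exact hba ((lin_dvd_symm hl3 hb hb0 h2).trans h3')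

end Vale.Agent.Lib.P200
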